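import Vale.Agent.P091.T.H587.Leaf
import Vale.Agent.P091.T.H124.Act

/-!
# P091, heart, row E1 (epoch lemma): frozen definitions

ONE EPOCH on the list tree of depth `n` (`Node = List Bool`, root `[]`, leaves = nodes of length
`n`); everything is relative to the root of the epoch.

* x-side: base classes `κ : ι` (letter `e κ`), `a κ x` = fraction of the leaf `x` in the class,
  `A κ x` = its weighted version, `al κ v` = the class is alive (started, above the floor) at `v`;
* y-side: `f v y` = density on LEAVING the node `v` (cuts and exits make it smaller; `f [] ` has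
  average `1`), channel `P y q` (values `L_J`);
* list data of `J`: `π i κ k` = law of the list of `κ` at level `i` (index `k : Λ`), common letter
  `E i k`, pattern `s i κ k x q`, coefficient `c i κ k`, with the identity `T2`;
* levels of explanation `j = 0..J`, threshold `T j` (`= θ_j D`), bias `2^-j`.

Activation: greatest self-explained set (helper124).  Stage of `κ` at `v`: least activated level.
-/

open Finset Vale.Agent.P091.H413 Vale.Agent.P091.T.H587

namespace Vale.Agent.P091.T.H316

/-- average over the leaves (nodes of length `n`) below `v` -/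
noncomputable def La (n : ℕ) (F : Node → ℝ) (v : Node) : ℝ := Lf (n - v.length) F v

/-- average over the leaves below `v`, complex -/
noncomputable def LaC (n : ℕ) (F : Node → ℂ) (v : Node) : ℂ := Lc (n - v.length) F v

/-- half difference over the two children -/
noncomputable def hd (X : Node → ℂ) (v : Node) : ℂ := (X (true :: v) - X (false :: v)) / 2

/-- the data of one epoch -/
structure EpD (n : ℕ) (ι Λ Q : Type) [Fintype ι] [Fintype Λ] [Fintype Q] where
  a : ι → Node → ℝ
  A : ι → Node → ℂ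
  e : ι → Node → ℂ
  al : ι → Node → Prop
  f : Node → Node → ℝ
  P : Node → Q → ℝ
  π : ℕ → ι → Λ → ℝ
  E : ℕ → Λ → Node → ℂ
  s : ℕ → ι → Λ → Node → Q → ℂ
  c : ℕ → ι → Λ → ℂ
  η : ℝ
  J : ℕ
  th : ℕ → ℝ
  h0 : ℝ

namespace EpD

variable {n : ℕ} {ι Λ Q : Type} [Fintype ι] [Fintype Λ] [Fintype Q] (D : EpD n ι Λ Q)

/-- mass of the class `κ` in the node `v` -/
noncomputable def am (κ : ι) (v : Node) : ℝ := La n (D.a κ) v

/-- total density on leaving `v` -/
noncomputable def g (v : Node) : ℝ := La n (D.f v) v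

/-- the bias of the class `κ` on leaving `v` (not normalised) -/
noncomputable def M (κ : ι) (v : Node) : ℂ := LaC n (fun y => D.f v y * D.e κ y) v

/-- half difference of the letter average over the children of `v` -/
noncomputable def dM (κ : ι) (v : Node) : ℂ := hd (LaC n (fun y => D.f v y * D.e κ y)) v

/-! ## activation -/

open Classical in
/-- the present classes which are not yet activated -/
noncomputable def wait (F : Finset ι) (v : Node) : Finset ι := univ.filter fun κ => D.al κ v ∧ κ ∉ F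

open Classical in
/-- the set activated at `v` at level `j`, when the classes in `F` are already active -/
noncomputable def new (j : ℕ) (F : Finset ι) (v : Node) : Finset ι :=
  Classical.choose (H124.exists_act (D.π v.length) (fun κ => D.am κ v) (Real.exp (D.th j)) (1 / 4)
    (D.wait F v))

open Classical in
/-- the classes activated at level `j` at `v` or above -/
noncomputable def Act (j : ℕ) : Node → Finset ι
  | [] => D.new j ∅ []
  | b :: v => Act j v ∪ D.new j (Act j v) (b :: v)

/-- the classes activated at level `j` strictly above `v` -/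
noncomputable def prev (j : ℕ) : Node → Finset ι
  | [] => ∅
  | _ :: v => D.Act j v

/-- `κ` is in stage `j` at `v` -/
def InSt (j : ℕ) (κ : ι) (v : Node) : Prop :=
  D.al κ v ∧ κ ∈ D.Act j v ∧ ∀ j' < j, κ ∉ D.Act j' v

open Classical in
/-- the level at which `κ` was activated (for `κ ∈ Act j v`) -/
noncomputable def fl (j : ℕ) (κ : ι) : Node → ℕ
  | [] => 0
  | _ :: v => if κ ∈ D.Act j v then fl j κ v else v.length + 1

/-- the ancestor of `v` of level `i` -/
def up (i : ℕ) (v : Node) : Node := v.drop (v.length - i)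

/-- the list element `k` is explained for the class `κ`, activated at `w` at level `j` -/
def expl (j : ℕ) (κ : ι) (k : Λ) (w : Node) : Prop :=
  D.π w.length κ k ≤ Real.exp (D.th j) *
    H124.alZ (D.π w.length) (fun κ => D.am κ w) (D.new j (D.prev j w) w) k

open Classical in
/-- weight of the list element `k` in the list of `κ`, activated at `w` at level `j` -/
noncomputable def wt (j : ℕ) (κ : ι) (w : Node) (k : Λ) : ℝ :=
  if D.expl j κ k w then D.π w.length κ k else 0

/-- the explained part of the character of `κ`, activated at `w` at level `j` -/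
noncomputable def φ (j : ℕ) (κ : ι) (w : Node) : ℂ := ∑ k, D.wt j κ w k * D.c w.length κ k

/-- `κ` belongs at `v` to the classes of stage `j` activated at level `i` of the tree -/
def In (j i : ℕ) (κ : ι) (v : Node) : Prop := D.InSt j κ v ∧ D.fl j κ v = i

/-! ## the system of Lemma E of stage `j` -/

open Classical in
noncomputable def cα (j : ℕ) (ik : Fin (n + 1) × Λ) (v : Node) : ℝ :=
  ∑ κ, if D.In j ik.1 κ v then D.am κ v * D.wt j κ (up ik.1 v) ik.2 else 0

open Classical in
noncomputable def cα' (j : ℕ) (ik : Fin (n + 1) × Λ) : Node → ℝ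
  | [] => 0
  | b :: v => ∑ κ, if D.In j ik.1 κ v then D.am κ (b :: v) * D.wt j κ (up ik.1 v) ik.2 else 0

open Classical in
noncomputable def cA (j : ℕ) (ik : Fin (n + 1) × Λ) (q : Q) (v : Node) : ℂ :=
  ∑ κ, if D.In j ik.1 κ v then
    (D.φ j κ (up ik.1 v))⁻¹ / 8 * D.wt j κ (up ik.1 v) ik.2 *
      LaC n (fun x => D.A κ x * D.s ik.1 κ ik.2 x q) v else 0

open Classical in
noncomputable def cA' (j : ℕ) (ik : Fin (n + 1) × Λ) (q : Q) : Node → ℂ
  | [] => 0
  | b :: v => ∑ κ, if D.In j ik.1 κ v then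
    (D.φ j κ (up ik.1 v))⁻¹ / 8 * D.wt j κ (up ik.1 v) ik.2 *
      LaC n (fun x => D.A κ x * D.s ik.1 κ ik.2 x q) (b :: v) else 0

noncomputable def cG (q : Q) (v : Node) : ℝ := La n (fun y => D.f v y * D.P y q) v / 2

noncomputable def cG' (q : Q) : Node → ℝ
  | [] => D.cG q []
  | b :: v => La n (fun y => D.f v y * D.P y q) (b :: v) / 2

noncomputable def cB (ik : Fin (n + 1) × Λ) (q : Q) (v : Node) : ℂ :=
  LaC n (fun y => D.f v y * D.P y q * D.E ik.1 ik.2 y) v / 2

noncomputable def cB' (ik : Fin (n + 1) × Λ) (q : Q) : Node → ℂ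
  | [] => D.cB ik q []
  | b :: v => LaC n (fun y => D.f v y * D.P y q * D.E ik.1 ik.2 y) (b :: v) / 2

/-- **the system of Lemma E of stage `j`** -/
noncomputable def sys (j : ℕ) : ESys (Fin (n + 1) × Λ) Q where
  α := D.cα j
  α' := D.cα' j
  A := D.cA j
  A' := D.cA' j
  G := D.cG
  G' := D.cG'
  B := D.cB
  B' := D.cB'

/-! ## the gain -/

open Classical in
/-- x-difference over the children of `b :: v`, if the class is alive at `v` and at `b :: v` -/
noncomputable def xd (κ : ι) (b : Bool) (v : Node) : ℂ :=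
  if D.al κ v ∧ D.al κ (b :: v) then hd (LaC n (D.A κ)) (b :: v) else 0

/-- the contribution of the node `v` to the gain (Petermichl's shift) -/
noncomputable def gte (v : Node) : ℂ :=
  ∑ κ, (D.xd κ true v - D.xd κ false v) / 2 * D.dM κ v

/-- `κ` is biased on leaving `v` at level `j` -/
def biased (j : ℕ) (κ : ι) (v : Node) : Prop := (1 / 2) ^ j * D.g v < ‖D.M κ v‖

open Classical in
/-- the biased classes which are not activated at level `j` at `v` -/
noncomputable def ub (j : ℕ) (v : Node) : Finset ι :=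
  univ.filter fun κ => D.al κ v ∧ κ ∉ D.Act j v ∧ D.biased j κ v

/-- **the hypotheses of the epoch lemma** -/
structure Ok : Prop where
  a_nonneg : ∀ κ x, 0 ≤ D.a κ x
  a_sum : ∀ x, ∑ κ, D.a κ x ≤ 1
  A_le : ∀ κ x, ‖D.A κ x‖ ≤ D.a κ x
  e_norm : ∀ κ y, ‖D.e κ y‖ = 1
  al_int : ∀ κ b v, D.al κ (b :: v) → ¬ D.al κ v → ∀ w, w <:+ v → ¬ D.al κ w
  al_floor : ∀ κ v, v.length ≤ n → D.al κ v → Real.exp (-D.h0) ≤ D.am κ v
  f_nonneg : ∀ v y, 0 ≤ D.f v y
  f_anti : ∀ b v y, D.f (b :: v) y ≤ D.f v y
  g_root : D.g [] ≤ 1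
  g_le : ∀ v, v.length < n → D.g v ≤ 2
  P_nonneg : ∀ y q, 0 ≤ D.P y q
  P_sum : ∀ y, ∑ q, D.P y q = 1
  π_nonneg : ∀ i κ k, 0 ≤ D.π i κ k
  π_sum : ∀ i κ, ∑ k, D.π i κ k = 1
  E_norm : ∀ i k y, ‖D.E i k y‖ ≤ 1
  s_norm : ∀ i κ k x q, ‖D.s i κ k x q‖ ≤ 1
  c_norm : ∀ i κ k, ‖D.c i κ k‖ ≤ 1
  c_sum : ∀ i κ, ∑ k, D.π i κ k * ‖1 - D.c i κ k‖ ≤ 1 / 8
  η_nonneg : 0 ≤ D.η
  /-- the exact identity (G1) with the phase taken at `x`, on a node `v` of level at least `i` -/
  T2 : ∀ i κ k v x y, i ≤ v.length → v.length ≤ n → v <:+ x → x.length = n → v <:+ y →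
    y.length = n → ‖∑ q, D.s i κ k x q * (D.P y q : ℂ) * D.E i k y - D.c i κ k * D.e κ y‖
      ≤ D.η * (1 / 2) ^ (v.length - i)
  h0_nonneg : 0 ≤ D.h0
  th_nonneg : ∀ j, 0 ≤ D.th j
  th_top : D.h0 ≤ D.th D.J
  /-- the refinement rule: biased classes which are not activated are rare -/
  rule : ∀ j < D.J, ∀ v, v.length < n → ∑ κ ∈ D.ub j v, D.am κ v ≤ Real.exp (-(D.th j / 2))

end EpD

/-- **Lemma E, departure form** (helper916): `good` only on departure. -/
def LemmaE1 : Prop :=
  ∃ C : ℝ, 0 < C ∧ ∀ (K Q : Type) [Fintype K] [Fintype Q] (s : ESys K Q) (n : ℕ)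
    (good : K → Node → Prop) [∀ k v, Decidable (good k v)] (h I m δ b : ℝ),
    s.Ok n → 0 ≤ h → 0 ≤ I → 0 ≤ m → 0 ≤ δ → 0 ≤ b →
    S n (fun v => ∑ k, s.dα k v ^ 2 / s.α k v) [] ≤ 2 * h →
    S n (fun v => ∑ q, s.dG q v ^ 2 / s.G q v) [] ≤ I →
    S n (fun v => ∑ k, max (s.α' k v - s.α k v) 0) [] ≤ m →
    (∀ k v, v.length < n → good k v → ‖s.z k v‖ ≤ δ * s.α k v) →
    S n (fun v => ∑ k, if good k v then 0 else s.α k v * ‖s.τ k v‖ ^ 2) [] ≤ b →
    ∀ c : Bool, S (n - 1) (s.gain1 c) [] ≤
      C * (δ * h + √((1 + m + h + I) * (1 + m + I + √(I * h)))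
        + √h * √(1 + m + √(h * b) + √((1 + m + h + I) * (1 + m + I + √(I * h)))
            + (1 + m + I + √(I * h))) + I + m + 1)

end Vale.Agent.P091.T.H316
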