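import Vale.Agent.P091.T.Rel
import Vale.Agent.P091.T.H233.StageZ

/-!
# P091, heart, row E1: literal definitions of one stage and the Prop `P_STAGE` (helper316)

Relative tree of `T/Rel`: node `v` = `(j0 + |v|, ia a0 v)`, depth `n - j0`.
The stage with index `t` (`t < sm`, threshold `th (t + 1)`, bias `2 ^ (-t)`) is stage `t` of the
process `pdZ` of `T/H233/StageZ`.
-/

set_option autoImplicit false

open Finset
open Vale.Agent.P091.Spec Vale.Agent.P091.H413
open Vale.Agent.P091.T.H350 Vale.Agent.P091.T.H587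
open scoped Classical

noncomputable section

namespace Vale.Agent.P091.T.H316

variable {C1 D : ℝ} {n b : ℕ} {ι : Type} [Fintype ι] (d : ZData C1 D n b ι)

/-- mass of the class `κ` in the relative node `v` -/
def cw (j0 a0 : ℕ) (κ : ι) (v : Node) : ℝ := av n (j0 + v.length) (T.ia a0 v) (d.a κ)

/-- average of the coefficient of the class `κ` over the relative node `v` -/
def cA (j0 a0 : ℕ) (κ : ι) (v : Node) : ℂ := avC n (j0 + v.length) (T.ia a0 v) (d.A κ)

/-- twice the density of the start set: the normalisation of the y-side -/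
def bt (j0 a0 : ℕ) (Y : Finset ℕ) : ℝ := 2 * av n j0 a0 (cut d.p Y)

/-- half difference of the letter average over the two children, departure from `v` -/
def dMZ (j0 a0 : ℕ) (Y : Finset ℕ) (W : ℕ → ℕ → Finset ℕ) (κ : ι) (v : Node) : ℂ :=
  dZ n b (cut d.p (W (j0 + v.length) (T.ia a0 v))) (d.r κ) (j0 + v.length) (T.ia a0 v)
    / (bt d j0 a0 Y : ℂ)

/-- contribution of the node `v` to the gain of the stage with index `t` -/
def gZ (A : ℝ) (J : List (Un n b)) (j0 a0 : ℕ) (Y : Finset ℕ) (W : ℕ → ℕ → Finset ℕ) (t : ℕ)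
    (v : Node) : ℂ :=
  ∑ κ, if (H233.pdZ d A J j0 a0).mem t κ v then
    hd (hd (cA d j0 a0 κ)) v * dMZ d j0 a0 Y W κ v else 0

/-- **the gain of one stage** -/
def P_STAGE : Prop := ∀ s0 A C1 c : ℝ, 0 < s0 → 1 ≤ A → 0 ≤ C1 → 0 < c → ∃ C D0 : ℝ,
  ∀ (D : ℝ) (n : ℕ) (ι : Type) [Fintype ι] (d : ZData C1 D n (bb D) ι)
    (J : List (Un n (bb D))) (j0 a0 : ℕ) (Y : Finset ℕ) (W : ℕ → ℕ → Finset ℕ) (t : ℕ),
    D0 ≤ D → Epoch d A c s0 J j0 a0 Y W → t < sm A C1 D →
    ‖SC (n - 1 - j0) (gZ d A J j0 a0 Y W t) []‖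
      ≤ C * ((1 / 2 : ℝ) ^ (t + 1) * th A D (t + 1) + D / (ll D : ℝ) ^ 3)

end Vale.Agent.P091.T.H316
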