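import Vale.Agent.P091.T.H233.Stage
import Vale.Agent.P091.H413.Sys5

/-!
# P091, heart, row E1-D (helper316): abstract data of one stage and its system of Lemma E

`SD` : process `pd`, stage `t`, masses `m`, weights `wt`, coefficients `γ`, `cc`, alive density
`f`, kernel `P`, list letters `eI`, class letters `eX`.
-/

set_option autoImplicit false

open Finset Vale.Agent.P091.H413 Vale.Agent.P091.T.H587 Vale.Agent.P091.T.H233
open scoped Classical

noncomputable section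

namespace Vale.Agent.P091.T.H316

/-! ## averages -/

theorem Lc_congr_below (m : ℕ) {F G : Node → ℂ} (v : Node)
    (h : ∀ l : List Bool, l.length = m → F (l ++ v) = G (l ++ v)) : Lc m F v = Lc m G v := by
  induction m generalizing v with
  | zero => exact h [] rfl
  | succ m ih =>
    simp only [Lc]
    rw [ih (true :: v) (fun l hl => by
        have := h (l ++ [true]) (by simp [hl])
        simpa using this),
      ih (false :: v) (fun l hl => by
        have := h (l ++ [false]) (by simp [hl])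
        simpa using this)]

theorem norm_Lc_below (m : ℕ) {F : Node → ℂ} {G : Node → ℝ} (v : Node)
    (h : ∀ l : List Bool, l.length = m → ‖F (l ++ v)‖ ≤ G (l ++ v)) : ‖Lc m F v‖ ≤ Lf m G v :=
  (norm_Lc_le m F v).trans (Lf_mono_below m v h)

theorem Lc_sum' {ι : Type*} (m : ℕ) (s : Finset ι) (F : ι → Node → ℂ) (v : Node) :
    Lc m (fun x => ∑ i ∈ s, F i x) v = ∑ i ∈ s, Lc m (F i) v := Lc_sum m s F v

theorem Lc_zero (m : ℕ) (v : Node) : Lc m (fun _ => (0 : ℂ)) v = 0 := by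
  induction m generalizing v with
  | zero => rfl
  | succ m ih => simp only [Lc, ih]; simp

theorem Lc_ite (m : ℕ) (p : Prop) (F : Node → ℂ) (v : Node) :
    Lc m (fun x => if p then F x else 0) v = if p then Lc m F v else 0 := by
  split_ifs
  · rfl
  · exact Lc_zero m v

theorem Lf_ite (m : ℕ) (p : Prop) (F : Node → ℝ) (v : Node) :
    Lf m (fun x => if p then F x else 0) v = if p then Lf m F v else 0 := by
  split_ifs
  · rfl
  · exact Lf_const m 0 v

/-- **double average**: pairing of two node averages -/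
theorem pair_bound {Q : Type} [Fintype Q] (m m' : ℕ) (v1 v2 : Node) (γ : Q → Node → ℂ)
    (c : Node → ℂ) (f : Node → ℝ) (P : Node → Q → ℝ) (eI eX : Node → ℂ) (u : Node → ℝ) (ε : ℝ)
    (hf : ∀ y, 0 ≤ f y)
    (h : ∀ l l' : List Bool, l.length = m → l'.length = m' →
      ‖∑ q, γ q (l ++ v1) * (P (l' ++ v2) q : ℂ) * eI (l' ++ v2)
        - c (l ++ v1) * eX (l' ++ v2)‖ ≤ ε * u (l ++ v1)) :
    ‖∑ q, Lc m (γ q) v1 * Lc m' (fun y => (f y : ℂ) * (P y q : ℂ) * eI y) v2
      - Lc m c v1 * Lc m' (fun y => (f y : ℂ) * eX y) v2‖ ≤ ε * Lf m u v1 * Lf m' f v2 := by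
  have e1 : ∑ q, Lc m (γ q) v1 * Lc m' (fun y => (f y : ℂ) * (P y q : ℂ) * eI y) v2
      - Lc m c v1 * Lc m' (fun y => (f y : ℂ) * eX y) v2
      = Lc m (fun x => Lc m' (fun y => (f y : ℂ) *
        (∑ q, γ q x * (P y q : ℂ) * eI y - c x * eX y)) v2) v1 := by
    have h1 : ∀ x, Lc m' (fun y => (f y : ℂ) * (∑ q, γ q x * (P y q : ℂ) * eI y - c x * eX y)) v2
        = ∑ q, γ q x * Lc m' (fun y => (f y : ℂ) * (P y q : ℂ) * eI y) v2
          - c x * Lc m' (fun y => (f y : ℂ) * eX y) v2 := by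
      intro x
      simp only [← Lc_mul_left]
      rw [← Lc_sum, ← Lc_sub]
      refine Lc_congr _ _ fun y _ => ?_
      rw [mul_sub, mul_sum]
      congr 1
      · exact sum_congr rfl fun q _ => by ring
      · ring
    simp only [h1]
    rw [Lc_sub, Lc_sum, Lc_mul_right]
    congr 1
    exact sum_congr rfl fun q _ => (Lc_mul_right _ _ _ _).symm
  rw [e1]
  have h2 : Lf m (fun x => ε * u x * Lf m' f v2) v1 = ε * Lf m u v1 * Lf m' f v2 := by
    have : (fun x => ε * u x * Lf m' f v2) = fun x => (ε * Lf m' f v2) * u x := by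
      funext x; ring
    rw [this, Lf_smul]; ring
  rw [← h2]
  refine norm_Lc_below m v1 fun l hl => ?_
  have h3 : Lf m' (fun y => ε * u (l ++ v1) * f y) v2 = ε * u (l ++ v1) * Lf m' f v2 :=
    Lf_smul _ _ _ _
  rw [← h3]
  refine norm_Lc_below m' v2 fun l' hl' => ?_
  rw [norm_mul, Complex.norm_real, Real.norm_of_nonneg (hf _), mul_comm]
  exact mul_le_mul_of_nonneg_right (h l l' hl hl') (hf _)

/-! ## the data -/

/-- abstract data of one stage -/
structure SD (X I Q : Type) [Fintype X] [Fintype I] [Fintype Q] (n : ℕ) where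
  pd : PD X
  t : ℕ
  m : X → Node → ℝ
  m0 : ∀ κ x, 0 ≤ m κ x
  msum : ∀ x, x.length = n → ∑ κ, m κ x ≤ 1
  wt : X → Node → I → ℝ
  wt0 : ∀ κ w i, 0 ≤ wt κ w i
  wtsum : ∀ κ w, ∑ i, wt κ w i ≤ 1
  γ : X → Node → I → Q → Node → ℂ
  hγ : ∀ κ w i q x, x.length = n → ‖γ κ w i q x‖ ≤ m κ x * wt κ w i
  cc : X → Node → I → Node → ℂ
  hcc : ∀ κ w i x, x.length = n → ‖cc κ w i x‖ ≤ m κ x * wt κ w i
  AX : X → Node → ℂ
  hAX : ∀ κ w x, κ ∈ pd.new w t → w.length ≤ n → x.length = n → ∑ i, cc κ w i x = AX κ x / 4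
  f : ℕ → Node → ℝ
  f0 : ∀ j y, 0 ≤ f j y
  fanti : ∀ j y, y.length = n → f (j + 1) y ≤ f j y
  fle : ∀ v : Node, v.length ≤ n → Lf (n - v.length) (f (v.length - 1)) v ≤ 2
  P : Node → Q → ℝ
  P0 : ∀ y q, 0 ≤ P y q
  Psum : ∀ y, ∑ q, P y q = 1
  eI : I → Node → ℂ
  heI : ∀ i y, ‖eI i y‖ ≤ 1
  eX : X → Node → ℂ
  heX : ∀ κ y, ‖eX κ y‖ ≤ 1
  η : ℝ
  η0 : 0 ≤ η
  rep : ∀ κ w i v x y, κ ∈ pd.new w t → w <:+ v → v <:+ x → v <:+ y → x.length = n →
    y.length = n → ‖∑ q, γ κ w i q x * (P y q : ℂ) * eI i y - cc κ w i x * eX κ y‖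
      ≤ η * (1 / 2) ^ (v.length - w.length) * (m κ x * wt κ w i)

namespace SD

variable {X I Q : Type} [Fintype X] [Fintype I] [Fintype Q] {n : ℕ} (d : SD X I Q n)

def xw : XW X I n := d.pd.toXW n d.t false d.m d.m0 d.msum d.wt d.wt0 d.wtsum

def L : LeafData (Fin n × I) Q n :=
  d.xw.toLeaf d.γ d.hγ (fun q j y => d.f j y * d.P y q) (fun q j y => mul_nonneg (d.f0 j y)
    (d.P0 y q)) (fun q j y hy => mul_le_mul_of_nonneg_right (d.fanti j y hy) (d.P0 y q))
    (fun k y => d.eI k.2 y) (fun k y => d.heI k.2 y)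

/-- `κ` belongs at `v` to the stage, activated at the level `ℓ` -/
def In (ℓ : ℕ) (κ : X) (v : Node) : Prop := κ ∈ d.pd.new (anc ℓ v) d.t ∧ d.pd.mem d.t κ v

/-- mass of `κ` in the node -/
def mb (κ : X) (v : Node) : ℝ := Lf (n - v.length) (d.m κ) v

lemma mb_nonneg (κ : X) (v : Node) : 0 ≤ d.mb κ v := Lf_nonneg _ _ fun x _ => d.m0 κ x

lemma mb_mart (κ : X) {v : Node} (hv : v.length < n) :
    d.mb κ v = (d.mb κ (true :: v) + d.mb κ (false :: v)) / 2 :=
  LeafData.Lf_step (fun _ => d.m κ) v hv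

/-- coefficient of the class `(ℓ, i)` at leaves below `v`, modifications of the level `|v|` -/
lemma cf_below {v : Node} (hv : v.length ≤ n) (k : Fin n × I) (hk : (k.1 : ℕ) ≤ v.length) (q : Q)
    (l : List Bool) :
    d.L.c k q v.length (l ++ v) =
      ∑ κ, if d.In k.1 κ v then d.γ κ (anc k.1 v) k.2 q (l ++ v) else 0 := by
  show d.xw.cf d.γ k q v.length (l ++ v) = _
  unfold XW.cf
  rw [if_pos hk, anc_append l hk]
  rw [← sum_filter (s := univ) (p := fun κ => d.In k.1 κ v)]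
  have e1 : ∀ κ, d.xw.alive κ v.length (l ++ v) ↔ d.pd.mem d.t κ v := by
    intro κ
    show (d.pd.mem d.t κ (anc v.length (l ++ v)) ∧ _) ↔ _
    rw [anc_append l le_rfl, anc_self]
    simp
  rw [← sum_filter]
  refine sum_congr ?_ fun κ _ => rfl
  ext κ
  simp only [mem_filter, mem_univ, true_and, e1]
  rfl

lemma a_below {v : Node} (hv : v.length ≤ n) (k : Fin n × I) (hk : (k.1 : ℕ) ≤ v.length)
    (l : List Bool) :
    d.L.a k v.length (l ++ v) =
      ∑ κ, if d.In k.1 κ v then d.m κ (l ++ v) * d.wt κ (anc k.1 v) k.2 else 0 := by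
  show d.xw.a k v.length (l ++ v) = _
  unfold XW.a
  rw [if_pos hk, anc_append l hk]
  rw [← sum_filter (s := univ) (p := fun κ => d.In k.1 κ v)]
  have e1 : ∀ κ, d.xw.alive κ v.length (l ++ v) ↔ d.pd.mem d.t κ v := by
    intro κ
    show (d.pd.mem d.t κ (anc v.length (l ++ v)) ∧ _) ↔ _
    rw [anc_append l le_rfl, anc_self]
    simp
  rw [← sum_filter]
  refine sum_congr ?_ fun κ _ => rfl
  ext κ
  simp only [mem_filter, mem_univ, true_and, e1]
  rfl

lemma Lc_cf {v u : Node} (hv : v.length ≤ n) (r : ℕ) (s : List Bool) (hu : u = s ++ v)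
    (k : Fin n × I) (hk : (k.1 : ℕ) ≤ v.length) (q : Q) :
    Lc r (d.L.c k q v.length) u =
      ∑ κ, if d.In k.1 κ v then Lc r (d.γ κ (anc k.1 v) k.2 q) u else 0 := by
  have h1 : Lc r (d.L.c k q v.length) u =
      Lc r (fun x => ∑ κ, if d.In k.1 κ v then d.γ κ (anc k.1 v) k.2 q x else 0) u := by
    refine Lc_congr_below _ _ fun l _ => ?_
    have := d.cf_below hv k hk q (l ++ s)
    rwa [List.append_assoc, ← hu] at this
  rw [h1, Lc_sum]
  exact sum_congr rfl fun κ _ => Lc_ite _ _ _ _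

lemma Lf_a {v u : Node} (hv : v.length ≤ n) (r : ℕ) (s : List Bool) (hu : u = s ++ v)
    (k : Fin n × I) (hk : (k.1 : ℕ) ≤ v.length) :
    Lf r (d.L.a k v.length) u =
      ∑ κ, if d.In k.1 κ v then d.wt κ (anc k.1 v) k.2 * Lf r (d.m κ) u else 0 := by
  have h1 : Lf r (d.L.a k v.length) u =
      Lf r (fun x => ∑ κ, if d.In k.1 κ v then d.wt κ (anc k.1 v) k.2 * d.m κ x else 0) u := by
    refine Lf_congr_below _ _ fun l _ => ?_
    have := d.a_below hv k hk (l ++ s)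
    rw [List.append_assoc, ← hu] at this
    rw [this]
    refine sum_congr rfl fun κ _ => ?_
    split_ifs
    · ring
    · rfl
  rw [h1, Lf_sum]
  refine sum_congr rfl fun κ _ => ?_
  rw [Lf_ite]
  split_ifs
  · rw [Lf_smul]
  · rfl

/-- departure masses -/
lemma sys_α {v : Node} (hv : v.length ≤ n) (k : Fin n × I) (hk : (k.1 : ℕ) ≤ v.length) :
    d.L.sys.α k v = ∑ κ, if d.In k.1 κ v then d.wt κ (anc k.1 v) k.2 * d.mb κ v else 0 :=
  d.Lf_a hv (n - v.length) [] rfl k hk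

lemma sys_A {v : Node} (hv : v.length ≤ n) (k : Fin n × I) (hk : (k.1 : ℕ) ≤ v.length) (q : Q) :
    d.L.sys.A k q v =
      ∑ κ, if d.In k.1 κ v then Lc (n - v.length) (d.γ κ (anc k.1 v) k.2 q) v else 0 :=
  d.Lc_cf hv (n - v.length) [] rfl k hk q

/-- arrival at a child -/
lemma sys_A' {v : Node} (hv : v.length < n) (c : Bool) (k : Fin n × I)
    (hk : (k.1 : ℕ) ≤ v.length) (q : Q) :
    d.L.sys.A' k q (c :: v) = ∑ κ, if d.In k.1 κ v then
      Lc (n - (c :: v).length) (d.γ κ (anc k.1 v) k.2 q) (c :: v) else 0 :=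
  d.Lc_cf hv.le (n - (c :: v).length) [c] rfl k hk q

lemma α_zero {v : Node} (k : Fin n × I) (hk : v.length < (k.1 : ℕ)) : d.L.sys.α k v = 0 := by
  refine le_antisymm (Lf_le_of _ _ fun x _ => (d.L.a_act k _ x hk).le) ?_
  exact Lf_nonneg _ _ fun x _ => d.L.a_nonneg k _ x

end SD

end Vale.Agent.P091.T.H316
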