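import Vale.Agent.P091.T.H316.SD
import Vale.Agent.P091.H413.Sys6

/-!
# P091, heart, row E1-D (helper316): bounds of `z` and `τ`, error terms, weights
-/

set_option autoImplicit false

open Finset Vale.Agent.P091.H413 Vale.Agent.P091.T.H587 Vale.Agent.P091.T.H233
open scoped Classical

noncomputable section

namespace Vale.Agent.P091.T.H316

/-- finite Jensen -/
theorem jensen_fin {X : Type*} (s : Finset X) {α : ℝ} (u T : X → ℝ) (tc : X → ℂ) {τ : ℂ}
    (hα : α = ∑ κ ∈ s, u κ) (hu : ∀ κ ∈ s, 0 ≤ u κ)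
    (h : ∀ κ ∈ s, ‖tc κ‖ ≤ u κ * T κ) (hτ : (α : ℂ) * τ = ∑ κ ∈ s, tc κ) :
    α * ‖τ‖ ^ 2 ≤ ∑ κ ∈ s, u κ * T κ ^ 2 := by
  have hα0 : 0 ≤ α := by rw [hα]; exact sum_nonneg hu
  have hR : 0 ≤ ∑ κ ∈ s, u κ * T κ ^ 2 := sum_nonneg fun κ hκ => mul_nonneg (hu κ hκ) (sq_nonneg _)
  rcases hα0.eq_or_lt with h0 | h0
  · rw [← h0, zero_mul]; exact hR
  have h1 : α * ‖τ‖ ≤ ∑ κ ∈ s, u κ * T κ := by
    have : ‖(α : ℂ) * τ‖ = α * ‖τ‖ := by
      rw [norm_mul, Complex.norm_real, Real.norm_of_nonneg hα0]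
    rw [← this, hτ]
    exact norm_sum_le_of_le _ h
  have h2 : (∑ κ ∈ s, u κ * T κ) ^ 2 ≤ (∑ κ ∈ s, u κ) * ∑ κ ∈ s, u κ * T κ ^ 2 :=
    sum_sq_le_sum_mul_sum_of_sq_le_mul s hu (fun κ hκ => mul_nonneg (hu κ hκ) (sq_nonneg _))
      fun κ _ => le_of_eq (by ring)
  have h3 : (α * ‖τ‖) ^ 2 ≤ α * ∑ κ ∈ s, u κ * T κ ^ 2 := by
    refine (pow_le_pow_left₀ (by positivity) h1 2).trans ?_
    rwa [← hα] at h2
  have h4 : α * (α * ‖τ‖ ^ 2) ≤ α * ∑ κ ∈ s, u κ * T κ ^ 2 := by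
    calc _ = (α * ‖τ‖) ^ 2 := by ring
      _ ≤ _ := h3
  exact le_of_mul_le_mul_left h4 h0

namespace SD

variable {X I Q : Type} [Fintype X] [Fintype I] [Fintype Q] {n : ℕ} (d : SD X I Q n)

/-- density on departure -/
def gb (v : Node) : ℝ := Lf (n - v.length) (d.f v.length) v

/-- letter average on departure -/
def M (κ : X) (v : Node) : ℂ := Lc (n - v.length) (fun y => (d.f v.length y : ℂ) * d.eX κ y) v

/-- letter average over the child `c`, departure from `v` -/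
def Mc (κ : X) (c : Bool) (v : Node) : ℂ :=
  Lc (n - (c :: v).length) (fun y => (d.f v.length y : ℂ) * d.eX κ y) (c :: v)

/-- half difference over the children -/
def dM (κ : X) (v : Node) : ℂ := (d.Mc κ true v - d.Mc κ false v) / 2

/-- density of the child `c`, departure from `v` -/
def Gc (c : Bool) (v : Node) : ℝ := Lf (n - (c :: v).length) (d.f v.length) (c :: v)

lemma Gc_nonneg (c : Bool) (v : Node) : 0 ≤ d.Gc c v := Lf_nonneg _ _ fun y _ => d.f0 _ y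

lemma gb_nonneg (v : Node) : 0 ≤ d.gb v := Lf_nonneg _ _ fun y _ => d.f0 _ y

lemma gb_mart {v : Node} (hv : v.length < n) : d.gb v = (d.Gc true v + d.Gc false v) / 2 := by
  have h := LeafData.Lf_step (n := n) d.f v hv
  simp only [List.length_cons, Nat.add_sub_cancel] at h
  exact h

lemma gb_le_two {v : Node} (hv : v.length ≤ n) : d.gb v ≤ 2 := by
  refine le_trans ?_ (d.fle v hv)
  unfold gb
  refine Lf_mono _ _ fun y hy => ?_
  rcases Nat.eq_zero_or_pos v.length with h0 | h0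
  · rw [h0]
  · have := d.fanti (v.length - 1) y (by omega)
    rwa [Nat.sub_add_cancel h0] at this

lemma sys_B (k : Fin n × I) (q : Q) (v : Node) : d.L.sys.B k q v =
    Lc (n - v.length) (fun y => (d.f v.length y : ℂ) * (d.P y q : ℂ) * d.eI k.2 y) v := by
  show Lc (n - v.length) (fun y => ((d.f v.length y * d.P y q : ℝ) : ℂ) * d.eI k.2 y) v = _
  push_cast
  rfl

lemma sys_B' (k : Fin n × I) (q : Q) (c : Bool) (v : Node) : d.L.sys.B' k q (c :: v) =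
    Lc (n - (c :: v).length) (fun y => (d.f v.length y : ℂ) * (d.P y q : ℂ) * d.eI k.2 y)
      (c :: v) := by
  show Lc (n - (c :: v).length) (fun y => ((d.f ((c :: v).length - 1) y * d.P y q : ℝ) : ℂ)
    * d.eI k.2 y) (c :: v) = _
  push_cast
  rfl

/-- pairing of one class -/
lemma pairing {κ : X} {i : I} {v : Node} {ℓ : ℕ} (hℓ : ℓ ≤ v.length)
    (hκ : κ ∈ d.pd.new (anc ℓ v) d.t) {v1 v2 : Node} (s1 s2 : List Bool) (h1 : v1 = s1 ++ v)
    (h2 : v2 = s2 ++ v) (hv1 : v1.length ≤ n) (hv2 : v2.length ≤ n) (f : Node → ℝ)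
    (hf : ∀ y, 0 ≤ f y) :
    ‖∑ q, Lc (n - v1.length) (d.γ κ (anc ℓ v) i q) v1 *
        Lc (n - v2.length) (fun y => (f y : ℂ) * (d.P y q : ℂ) * d.eI i y) v2
      - Lc (n - v1.length) (d.cc κ (anc ℓ v) i) v1 *
        Lc (n - v2.length) (fun y => (f y : ℂ) * d.eX κ y) v2‖
    ≤ d.η * (1 / 2) ^ (v.length - ℓ) * (d.wt κ (anc ℓ v) i * d.mb κ v1)
      * Lf (n - v2.length) f v2 := by
  have e1 : Lf (n - v1.length) (fun x => d.m κ x * d.wt κ (anc ℓ v) i) v1 =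
      d.wt κ (anc ℓ v) i * d.mb κ v1 := by
    have : (fun x => d.m κ x * d.wt κ (anc ℓ v) i) = fun x => d.wt κ (anc ℓ v) i * d.m κ x := by
      funext x; ring
    rw [this, Lf_smul]; rfl
  rw [← e1]
  refine pair_bound (n - v1.length) (n - v2.length) v1 v2 (d.γ κ (anc ℓ v) i)
    (d.cc κ (anc ℓ v) i) f d.P (d.eI i) (d.eX κ) (fun x => d.m κ x * d.wt κ (anc ℓ v) i)
    (d.η * (1 / 2) ^ (v.length - ℓ)) hf fun l l' hl hl' => ?_
  have h3 := d.rep κ (anc ℓ v) i v (l ++ v1) (l' ++ v2) hκ (List.drop_suffix _ _)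
    (by rw [h1, ← List.append_assoc]; exact List.suffix_append _ _)
    (by rw [h2, ← List.append_assoc]; exact List.suffix_append _ _)
    (by simp only [List.length_append]; omega) (by simp only [List.length_append]; omega)
  rwa [length_anc hℓ] at h3

lemma norm_cc_le {κ : X} {w : Node} {i : I} {v : Node} (hv : v.length ≤ n) :
    ‖Lc (n - v.length) (d.cc κ w i) v‖ ≤ d.wt κ w i * d.mb κ v := by
  have e1 : Lf (n - v.length) (fun x => d.m κ x * d.wt κ w i) v = d.wt κ w i * d.mb κ v := by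
    have : (fun x => d.m κ x * d.wt κ w i) = fun x => d.wt κ w i * d.m κ x := by
      funext x; ring
    rw [this, Lf_smul]; rfl
  rw [← e1]
  exact norm_Lc_le_of _ _ fun x hx => d.hcc κ w i x (by omega)

/-- the error factor -/
def ep (ℓ : ℕ) (v : Node) : ℝ := d.η * (1 / 2) ^ (v.length - ℓ)

lemma ep_nonneg (ℓ : ℕ) (v : Node) : 0 ≤ d.ep ℓ v := mul_nonneg d.η0 (by positivity)

lemma ep_le (ℓ : ℕ) (v : Node) : d.ep ℓ v ≤ d.η :=
  mul_le_of_le_one_right d.η0 (pow_le_one₀ (by norm_num) (by norm_num))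

/-- one class in `z` -/
lemma z_one {κ : X} {k : Fin n × I} {v : Node} (hv : v.length ≤ n) (hk : (k.1 : ℕ) ≤ v.length)
    (hκ : d.In k.1 κ v) :
    ‖∑ q, Lc (n - v.length) (d.γ κ (anc k.1 v) k.2 q) v * d.L.sys.B k q v‖ ≤
      d.wt κ (anc k.1 v) k.2 * d.mb κ v * (‖d.M κ v‖ + 2 * d.ep k.1 v) := by
  have h1 := d.pairing (i := k.2) hk hκ.1 (v1 := v) (v2 := v) [] [] rfl rfl hv hv
    (d.f v.length) (d.f0 v.length)
  have h2 := d.norm_cc_le (κ := κ) (w := anc k.1 v) (i := k.2) hv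
  have h3 : ‖Lc (n - v.length) (d.cc κ (anc k.1 v) k.2) v * d.M κ v‖ ≤
      d.wt κ (anc k.1 v) k.2 * d.mb κ v * ‖d.M κ v‖ := by
    rw [norm_mul]
    exact mul_le_mul_of_nonneg_right h2 (norm_nonneg _)
  have hu : 0 ≤ d.wt κ (anc k.1 v) k.2 * d.mb κ v := mul_nonneg (d.wt0 _ _ _) (d.mb_nonneg _ _)
  have h4 : d.η * (1 / 2) ^ (v.length - k.1) * (d.wt κ (anc k.1 v) k.2 * d.mb κ v)
      * Lf (n - v.length) (d.f v.length) v ≤
      d.wt κ (anc k.1 v) k.2 * d.mb κ v * (2 * d.ep k.1 v) := by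
    have h5 := d.gb_le_two hv
    have h6 := mul_nonneg (d.ep_nonneg k.1 v) hu
    have h7 : d.ep k.1 v * (d.wt κ (anc k.1 v) k.2 * d.mb κ v) * d.gb v ≤
        d.ep k.1 v * (d.wt κ (anc k.1 v) k.2 * d.mb κ v) * 2 := mul_le_mul_of_nonneg_left h5 h6
    unfold gb ep at h7
    unfold ep
    linarith
  simp only [sys_B]
  have h8 := norm_sub_norm_le (∑ q, Lc (n - v.length) (d.γ κ (anc k.1 v) k.2 q) v *
        Lc (n - v.length) (fun y => (d.f v.length y : ℂ) * (d.P y q : ℂ) * d.eI k.2 y) v)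
    (Lc (n - v.length) (d.cc κ (anc k.1 v) k.2) v * d.M κ v)
  have h9 := h1.trans h4
  unfold M at h3 h8
  unfold M
  linarith

/-- **bound of `z`** -/
lemma z_le {k : Fin n × I} {v : Node} (hv : v.length ≤ n) (hk : (k.1 : ℕ) ≤ v.length) :
    ‖d.L.sys.z k v‖ ≤ ∑ κ, if d.In k.1 κ v then
      d.wt κ (anc k.1 v) k.2 * d.mb κ v * (‖d.M κ v‖ + 2 * d.ep k.1 v) else 0 := by
  have h1 : d.L.sys.z k v = ∑ κ, if d.In k.1 κ v then
      ∑ q, Lc (n - v.length) (d.γ κ (anc k.1 v) k.2 q) v * d.L.sys.B k q v else 0 := by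
    unfold ESys.z
    simp only [d.sys_A hv k hk, sum_mul]
    rw [sum_comm]
    refine sum_congr rfl fun κ _ => ?_
    split_ifs
    · rfl
    · simp
  rw [h1]
  refine norm_sum_le_of_le _ fun κ _ => ?_
  split_ifs with hκ
  · exact d.z_one hv hk hκ
  · simp

/-- one class in `τ` -/
lemma τ_one {κ : X} {k : Fin n × I} {v : Node} (hv : v.length < n) (hk : (k.1 : ℕ) ≤ v.length)
    (hκ : d.In k.1 κ v) :
    ‖∑ q, Lc (n - v.length) (d.γ κ (anc k.1 v) k.2 q) v * d.L.sys.dB k q v‖ ≤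
      d.wt κ (anc k.1 v) k.2 * d.mb κ v * (‖d.dM κ v‖ + 2 * d.ep k.1 v) := by
  have h1 := fun c : Bool => d.pairing (i := k.2) hk hκ.1 [] [c] rfl rfl hv.le
    (by simp only [List.length_cons]; omega)
    (d.f v.length) (d.f0 v.length) (v1 := v) (v2 := c :: v)
  have h2 := d.norm_cc_le (κ := κ) (w := anc k.1 v) (i := k.2) hv.le
  set u := d.wt κ (anc k.1 v) k.2 * d.mb κ v with hu'
  have hu : 0 ≤ u := mul_nonneg (d.wt0 _ _ _) (d.mb_nonneg _ _)
  set A := Lc (n - v.length) (d.cc κ (anc k.1 v) k.2) v with hA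
  have e1 : ∑ q, Lc (n - v.length) (d.γ κ (anc k.1 v) k.2 q) v * d.L.sys.dB k q v =
      ((∑ q, Lc (n - v.length) (d.γ κ (anc k.1 v) k.2 q) v * Lc (n - (true :: v).length)
        (fun y => (d.f v.length y : ℂ) * (d.P y q : ℂ) * d.eI k.2 y) (true :: v))
      - ∑ q, Lc (n - v.length) (d.γ κ (anc k.1 v) k.2 q) v * Lc (n - (false :: v).length)
        (fun y => (d.f v.length y : ℂ) * (d.P y q : ℂ) * d.eI k.2 y) (false :: v)) / 2 := by
    rw [← sum_sub_distrib, sum_div]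
    refine sum_congr rfl fun q _ => ?_
    unfold ESys.dB
    rw [sys_B', sys_B']
    ring
  rw [e1]
  have h3 := h1 true
  have h4 := h1 false
  set a1 := ∑ q, Lc (n - v.length) (d.γ κ (anc k.1 v) k.2 q) v * Lc (n - (true :: v).length)
        (fun y => (d.f v.length y : ℂ) * (d.P y q : ℂ) * d.eI k.2 y) (true :: v) with ha1
  set a2 := ∑ q, Lc (n - v.length) (d.γ κ (anc k.1 v) k.2 q) v * Lc (n - (false :: v).length)
        (fun y => (d.f v.length y : ℂ) * (d.P y q : ℂ) * d.eI k.2 y) (false :: v) with ha2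
  have h3' : ‖a1 - A * d.Mc κ true v‖ ≤ d.ep k.1 v * u * d.Gc true v := h3
  have h4' : ‖a2 - A * d.Mc κ false v‖ ≤ d.ep k.1 v * u * d.Gc false v := h4
  have e2 : (a1 - a2) / 2 = A * d.dM κ v + ((a1 - A * d.Mc κ true v)
      - (a2 - A * d.Mc κ false v)) / 2 := by
    unfold dM; ring
  rw [e2]
  have h5 : ‖((a1 - A * d.Mc κ true v) - (a2 - A * d.Mc κ false v)) / 2‖ ≤
      d.ep k.1 v * u * d.gb v := by
    rw [norm_div, Complex.norm_ofNat, d.gb_mart hv]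
    have := norm_sub_le (a1 - A * d.Mc κ true v) (a2 - A * d.Mc κ false v)
    linarith
  have h6 : ‖A * d.dM κ v‖ ≤ u * ‖d.dM κ v‖ := by
    rw [norm_mul]; exact mul_le_mul_of_nonneg_right h2 (norm_nonneg _)
  have h7 : d.ep k.1 v * u * d.gb v ≤ d.ep k.1 v * u * 2 :=
    mul_le_mul_of_nonneg_left (d.gb_le_two hv.le) (mul_nonneg (d.ep_nonneg _ _) hu)
  have h8 := norm_add_le (A * d.dM κ v) (((a1 - A * d.Mc κ true v)
      - (a2 - A * d.Mc κ false v)) / 2)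
  linarith

/-- **bound of `α ‖τ‖²`** -/
lemma ατ_le {k : Fin n × I} {v : Node} (hv : v.length < n) (hk : (k.1 : ℕ) ≤ v.length) :
    d.L.sys.α k v * ‖d.L.sys.τ k v‖ ^ 2 ≤ ∑ κ, if d.In k.1 κ v then
      d.wt κ (anc k.1 v) k.2 * d.mb κ v * (‖d.dM κ v‖ + 2 * d.ep k.1 v) ^ 2 else 0 := by
  have h1 : ∀ κ, (if d.In k.1 κ v then
      d.wt κ (anc k.1 v) k.2 * d.mb κ v * (‖d.dM κ v‖ + 2 * d.ep k.1 v) ^ 2 else 0) =
      (if d.In k.1 κ v then d.wt κ (anc k.1 v) k.2 * d.mb κ v else 0) *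
        (‖d.dM κ v‖ + 2 * d.ep k.1 v) ^ 2 := fun κ => by split_ifs <;> simp
  simp only [h1]
  refine jensen_fin univ (fun κ => if d.In k.1 κ v then d.wt κ (anc k.1 v) k.2 * d.mb κ v else 0)
    (fun κ => ‖d.dM κ v‖ + 2 * d.ep k.1 v)
    (fun κ => if d.In k.1 κ v then
      ∑ q, Lc (n - v.length) (d.γ κ (anc k.1 v) k.2 q) v * d.L.sys.dB k q v else 0)
    (d.sys_α hv.le k hk) (fun κ _ => ?_) (fun κ _ => ?_) ?_
  · split_ifs
    · exact mul_nonneg (d.wt0 _ _ _) (d.mb_nonneg _ _)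
    · exact le_rfl
  · by_cases hκ : d.In k.1 κ v
    · simp only [if_pos hκ]
      exact d.τ_one hv hk hκ
    · simp [hκ]
  · have h2 : ∀ q, (d.L.sys.α k v : ℂ) * (d.L.sys.A k q v / (d.L.sys.α k v : ℂ)) =
        d.L.sys.A k q v := by
      intro q
      by_cases h0 : d.L.sys.α k v = 0
      · have h3 : ‖d.L.sys.A k q v‖ ≤ 0 := by
          rw [← h0]
          exact norm_Lc_le_of _ _ fun x hx => d.L.c_le k q _ x (by omega)
        rw [norm_le_zero_iff.mp h3]; simp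
      · have : (d.L.sys.α k v : ℂ) ≠ 0 := by exact_mod_cast h0
        field_simp
    unfold ESys.τ
    rw [mul_sum]
    have h3 : ∀ q, (d.L.sys.α k v : ℂ) * (d.L.sys.A k q v / (d.L.sys.α k v : ℂ) *
        d.L.sys.dB k q v) = d.L.sys.A k q v * d.L.sys.dB k q v := by
      intro q
      rw [← mul_assoc, h2]
    rw [sum_congr rfl fun q _ => h3 q]
    simp only [d.sys_A hv.le k hk, sum_mul]
    rw [sum_comm]
    refine sum_congr rfl fun κ _ => ?_
    split_ifs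
    · rfl
    · simp

end SD

end Vale.Agent.P091.T.H316
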