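import Vale.Agent.P091.T.H316.SD2

/-!
# P091, heart, row E1-D (helper316): errors, weights, gain identity, the stage bound
-/

set_option autoImplicit false

open Finset Vale.Agent.P091.H413 Vale.Agent.P091.T.H587 Vale.Agent.P091.T.H233
open scoped Classical

noncomputable section

namespace Vale.Agent.P091.T.H316

theorem geo_le (ℓ N : ℕ) :
    ∑ j ∈ range N, (if ℓ ≤ j then (1 / 2 : ℝ) ^ (j - ℓ) else 0) ≤ 2 - 2 * (1 / 2) ^ (N - ℓ) := by
  induction N with
  | zero => simp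
  | succ N ih =>
    rw [sum_range_succ]
    rcases Nat.lt_or_ge N ℓ with h | h
    · rw [if_neg (by omega)]
      have e1 : N + 1 - ℓ = 0 := by omega
      have e2 : N - ℓ = 0 := by omega
      rw [e2] at ih
      rw [e1]
      linarith
    · rw [if_pos h]
      have e1 : N + 1 - ℓ = (N - ℓ) + 1 := by omega
      rw [e1, pow_succ]
      linarith

namespace SD

variable {X I Q : Type} [Fintype X] [Fintype I] [Fintype Q] {n : ℕ} (d : SD X I Q n)

/-- at most one level of activation -/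
lemma In_unique {κ : X} {v : Node} {ℓ ℓ' : ℕ} (h : ℓ ≤ v.length) (h' : ℓ' ≤ v.length)
    (h1 : d.In ℓ κ v) (h2 : d.In ℓ' κ v) : ℓ = ℓ' := d.pd.new_unique h h' h1.1 h2.1

/-- sum over the classes of the weights of one letter -/
lemma sum_k_le (κ : X) (v : Node) (p : Fin n → Prop) [DecidablePred p]
    (hp : ∀ ℓ, p ℓ → (ℓ : ℕ) ≤ v.length ∧ d.In ℓ κ v) (F : Fin n → ℝ) (c : ℝ)
    (hc : ∀ ℓ, p ℓ → F ℓ ≤ c) (hc0 : 0 ≤ c) :
    ∑ ℓ : Fin n, (if p ℓ then F ℓ else 0) ≤ c := by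
  by_cases h : ∃ ℓ, p ℓ
  · obtain ⟨ℓ0, h0⟩ := h
    rw [sum_eq_single ℓ0]
    · rw [if_pos h0]; exact hc ℓ0 h0
    · intro ℓ _ hne
      rw [if_neg]
      intro hℓ
      exact hne (Fin.ext (d.In_unique (hp ℓ hℓ).1 (hp ℓ0 h0).1 (hp ℓ hℓ).2 (hp ℓ0 h0).2))
    · intro h1; exact absurd (mem_univ _) h1
  · push Not at h
    rw [sum_eq_zero fun ℓ _ => if_neg (h ℓ)]
    exact hc0

/-! ## the error mass -/

/-- error mass -/
def er (v : Node) : ℝ := ∑ k : Fin n × I, if (k.1 : ℕ) ≤ v.length then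
  ∑ κ, (if d.In k.1 κ v then d.wt κ (anc k.1 v) k.2 * d.mb κ v * (1 / 2) ^ (v.length - k.1)
    else 0) else 0

lemma er_nonneg (v : Node) : 0 ≤ d.er v := by
  unfold er
  refine sum_nonneg fun k _ => ?_
  split_ifs
  · refine sum_nonneg fun κ _ => ?_
    split_ifs
    · exact mul_nonneg (mul_nonneg (d.wt0 _ _ _) (d.mb_nonneg _ _)) (by positivity)
    · exact le_rfl
  · exact le_rfl

/-- activated mass with the geometric factor, at the leaf -/
def erF (j : ℕ) (x : Node) : ℝ := ∑ ℓ : Fin n, if (ℓ : ℕ) ≤ j then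
  (1 / 2) ^ (j - ℓ) * ∑ κ ∈ d.pd.new (anc ℓ x) d.t, d.m κ x else 0

lemma er_le (v : Node) : d.er v ≤ Lf (n - v.length) (d.erF v.length) v := by
  have h1 : Lf (n - v.length) (d.erF v.length) v = ∑ ℓ : Fin n, if (ℓ : ℕ) ≤ v.length then
      (1 / 2) ^ (v.length - ℓ) * ∑ κ ∈ d.pd.new (anc ℓ v) d.t, d.mb κ v else 0 := by
    unfold erF
    rw [Lf_sum]
    refine sum_congr rfl fun ℓ _ => ?_
    by_cases hℓ : (ℓ : ℕ) ≤ v.length
    · simp only [if_pos hℓ]
      rw [Lf_smul]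
      congr 1
      unfold mb
      rw [← Lf_sum]
      refine Lf_congr_below _ _ fun l _ => ?_
      rw [anc_append l hℓ]
    · simp only [if_neg hℓ]
      exact Lf_const _ _ _
  rw [h1]
  unfold er
  rw [Fintype.sum_prod_type]
  refine sum_le_sum fun ℓ _ => ?_
  by_cases hℓ : (ℓ : ℕ) ≤ v.length
  · simp only [if_pos hℓ]
    rw [sum_comm, mul_sum, ← sum_filter_add_sum_filter_not univ
      (fun κ => κ ∈ d.pd.new (anc ℓ v) d.t)]
    have h2 : ∑ κ ∈ univ.filter (fun κ => ¬ κ ∈ d.pd.new (anc ℓ v) d.t), ∑ i : I,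
        (if d.In ℓ κ v then d.wt κ (anc ℓ v) i * d.mb κ v * (1 / 2) ^ (v.length - ℓ) else 0)
        = 0 := by
      refine sum_eq_zero fun κ hκ => sum_eq_zero fun i _ => if_neg fun h => ?_
      exact (mem_filter.mp hκ).2 h.1
    rw [h2, add_zero]
    have h3 : univ.filter (fun κ => κ ∈ d.pd.new (anc ℓ v) d.t) = d.pd.new (anc ℓ v) d.t := by
      ext κ; simp
    rw [h3]
    refine sum_le_sum fun κ _ => ?_
    have h4 : ∑ i : I, (if d.In ℓ κ v then d.wt κ (anc ℓ v) i * d.mb κ v *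
        (1 / 2) ^ (v.length - ℓ) else 0) ≤ ∑ i : I, d.wt κ (anc ℓ v) i * (d.mb κ v *
        (1 / 2) ^ (v.length - ℓ)) := by
      refine sum_le_sum fun i _ => ?_
      split_ifs
      · exact le_of_eq (by ring)
      · exact mul_nonneg (d.wt0 _ _ _) (mul_nonneg (d.mb_nonneg _ _) (by positivity))
    refine h4.trans ?_
    rw [← sum_mul]
    have h5 : 0 ≤ d.mb κ v * (1 / 2) ^ (v.length - (ℓ : ℕ)) :=
      mul_nonneg (d.mb_nonneg _ _) (by positivity)
    have := mul_le_mul_of_nonneg_right (d.wtsum κ (anc ℓ v)) h5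
    linarith
  · simp only [if_neg hℓ]
    simp

theorem S_er : S n d.er [] ≤ 2 := by
  refine (S_mono n [] fun v _ => d.er_le v).trans ?_
  rw [S_swap0 n d.erF]
  refine Lf_le_of _ _ fun x hx => ?_
  have hx' : x.length = n := by simpa using hx
  unfold erF
  rw [sum_comm]
  have h1 : ∀ ℓ : Fin n, ∑ j ∈ range n, (if (ℓ : ℕ) ≤ j then
      (1 / 2) ^ (j - ℓ) * ∑ κ ∈ d.pd.new (anc ℓ x) d.t, d.m κ x else 0) ≤
      2 * ∑ κ ∈ d.pd.new (anc ℓ x) d.t, d.m κ x := by
    intro ℓ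
    have h0 : 0 ≤ ∑ κ ∈ d.pd.new (anc ℓ x) d.t, d.m κ x := sum_nonneg fun κ _ => d.m0 κ x
    have h2 : ∑ j ∈ range n, (if (ℓ : ℕ) ≤ j then
      (1 / 2) ^ (j - ℓ) * ∑ κ ∈ d.pd.new (anc ℓ x) d.t, d.m κ x else 0) =
      (∑ j ∈ range n, (if (ℓ : ℕ) ≤ j then (1 / 2 : ℝ) ^ (j - ℓ) else 0)) *
        ∑ κ ∈ d.pd.new (anc ℓ x) d.t, d.m κ x := by
      rw [sum_mul]
      refine sum_congr rfl fun j _ => ?_
      split_ifs
      · rfl
      · rw [zero_mul]
    rw [h2]
    refine mul_le_mul_of_nonneg_right ?_ h0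
    have := geo_le ℓ n
    have h3 : (0 : ℝ) ≤ 2 * (1 / 2) ^ (n - (ℓ : ℕ)) := by positivity
    linarith
  refine (sum_le_sum fun ℓ _ => h1 ℓ).trans ?_
  rw [← mul_sum]
  have h4 : ∑ ℓ : Fin n, ∑ κ ∈ d.pd.new (anc ℓ x) d.t, d.m κ x ≤ 1 := by
    rw [Fin.sum_univ_eq_sum_range (fun ℓ => ∑ κ ∈ d.pd.new (anc ℓ x) d.t, d.m κ x) n]
    exact d.xw.sum_N_le x hx' (range n) fun ℓ hℓ => (mem_range.mp hℓ).le
  linarith

/-! ## bad classes -/

/-- exceptional part of a class -/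
def Ek (Exc : X → Node → Prop) (k : Fin n × I) (v : Node) : ℝ :=
  ∑ κ, if d.In k.1 κ v ∧ Exc κ v then d.wt κ (anc k.1 v) k.2 * d.mb κ v else 0

/-- good classes -/
def Good (Exc : X → Node → Prop) (δ : ℝ) (k : Fin n × I) (v : Node) : Prop :=
  (k.1 : ℕ) ≤ v.length → d.Ek Exc k v ≤ δ * d.L.sys.α k v

/-- weight of the bad classes -/
def wB (Exc : X → Node → Prop) (δ : ℝ) (κ : X) (v : Node) : ℝ :=
  ∑ k : Fin n × I, if ¬ d.Good Exc δ k v ∧ d.In k.1 κ v then d.wt κ (anc k.1 v) k.2 else 0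

variable {Exc : X → Node → Prop} {δ : ℝ}

lemma le_of_not_good {k : Fin n × I} {v : Node} (h : ¬ d.Good Exc δ k v) :
    (k.1 : ℕ) ≤ v.length := by
  unfold Good at h
  push Not at h
  exact h.1

lemma wB_nonneg (κ : X) (v : Node) : 0 ≤ d.wB Exc δ κ v := by
  unfold wB
  refine sum_nonneg fun k _ => ?_
  split_ifs
  · exact d.wt0 _ _ _
  · exact le_rfl

lemma sum_wt_le (κ : X) (v : Node) (p : Fin n × I → Prop) [DecidablePred p]
    (hp : ∀ k, p k → (k.1 : ℕ) ≤ v.length ∧ d.In k.1 κ v) :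
    ∑ k : Fin n × I, (if p k then d.wt κ (anc k.1 v) k.2 else 0) ≤ 1 := by
  rw [Fintype.sum_prod_type]
  have h1 : ∀ ℓ : Fin n, ∑ i : I, (if p (ℓ, i) then d.wt κ (anc ℓ v) i else 0) ≤
      if (∃ i, p (ℓ, i)) then (1 : ℝ) else 0 := by
    intro ℓ
    by_cases h : ∃ i, p (ℓ, i)
    · rw [if_pos h]
      refine (sum_le_sum fun i _ => ?_).trans (d.wtsum κ (anc ℓ v))
      split_ifs
      · exact le_rfl
      · exact d.wt0 _ _ _
    · rw [if_neg h]
      push Not at h
      rw [sum_eq_zero fun i _ => if_neg (h i)]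
  refine (sum_le_sum fun ℓ _ => h1 ℓ).trans ?_
  exact d.sum_k_le κ v (fun ℓ => ∃ i, p (ℓ, i)) (fun ℓ ⟨i, hi⟩ => hp _ hi) (fun _ => 1)
    1 (fun _ _ => le_rfl) zero_le_one

lemma wB_le_one (κ : X) (v : Node) : d.wB Exc δ κ v ≤ 1 :=
  d.sum_wt_le κ v (fun k => ¬ d.Good Exc δ k v ∧ d.In k.1 κ v)
    fun _ hk => ⟨d.le_of_not_good hk.1, hk.2⟩

lemma mem_of_wB {κ : X} {v : Node} (h : d.wB Exc δ κ v ≠ 0) : d.pd.mem d.t κ v := by
  unfold wB at h
  obtain ⟨k, _, hk⟩ := exists_ne_zero_of_sum_ne_zero h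
  by_contra hc
  exact hk (if_neg fun h1 => hc h1.2.2)

lemma sum_wB_mul (v : Node) (T : X → ℝ) : ∑ κ, d.wB Exc δ κ v * (d.mb κ v * T κ) =
    ∑ k : Fin n × I, if ¬ d.Good Exc δ k v then
      ∑ κ, (if d.In k.1 κ v then d.wt κ (anc k.1 v) k.2 * d.mb κ v * T κ else 0) else 0 := by
  unfold wB
  simp only [sum_mul]
  rw [sum_comm]
  refine sum_congr rfl fun k _ => ?_
  by_cases h : d.Good Exc δ k v
  · simp [h]
  · simp only [h, not_false_eq_true, true_and, if_true]
    refine sum_congr rfl fun κ _ => ?_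
    split_ifs
    · ring
    · ring

lemma wB_mass (hδ : 0 < δ) {v : Node} (hv : v.length ≤ n) :
    ∑ κ, d.wB Exc δ κ v * d.mb κ v ≤
      (∑ κ, if d.pd.mem d.t κ v ∧ Exc κ v then d.mb κ v else 0) / δ := by
  have h0 := d.sum_wB_mul (Exc := Exc) (δ := δ) v (fun _ => 1)
  simp only [mul_one] at h0
  rw [h0, le_div_iff₀ hδ, sum_mul]
  have h1 : ∀ k : Fin n × I, (if ¬ d.Good Exc δ k v then
      ∑ κ, (if d.In k.1 κ v then d.wt κ (anc k.1 v) k.2 * d.mb κ v else 0) else 0) * δ ≤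
      if (k.1 : ℕ) ≤ v.length then d.Ek Exc k v else 0 := by
    intro k
    by_cases h : d.Good Exc δ k v
    · rw [if_neg (not_not.mpr h), zero_mul]
      split_ifs
      · unfold Ek
        refine sum_nonneg fun κ _ => ?_
        split_ifs
        · exact mul_nonneg (d.wt0 _ _ _) (d.mb_nonneg _ _)
        · exact le_rfl
      · exact le_rfl
    · rw [if_pos h, if_pos (d.le_of_not_good h), ← d.sys_α hv k (d.le_of_not_good h)]
      unfold Good at h
      push Not at h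
      rw [mul_comm]
      exact h.2.le
  refine (sum_le_sum fun k _ => h1 k).trans ?_
  have h2 : ∑ k : Fin n × I, (if (k.1 : ℕ) ≤ v.length then d.Ek Exc k v else 0) =
      ∑ κ, (if Exc κ v then (∑ k : Fin n × I, if (k.1 : ℕ) ≤ v.length ∧ d.In k.1 κ v then
        d.wt κ (anc k.1 v) k.2 else 0) * d.mb κ v else 0) := by
    have h3 : ∀ k : Fin n × I, (if (k.1 : ℕ) ≤ v.length then d.Ek Exc k v else 0) =
        ∑ κ, (if (k.1 : ℕ) ≤ v.length ∧ d.In k.1 κ v ∧ Exc κ v then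
          d.wt κ (anc k.1 v) k.2 * d.mb κ v else 0) := by
      intro k
      by_cases h : (k.1 : ℕ) ≤ v.length
      · rw [if_pos h]
        unfold Ek
        refine sum_congr rfl fun κ _ => ?_
        simp [h]
      · rw [if_neg h]
        exact (sum_eq_zero fun κ _ => if_neg fun h4 => h h4.1).symm
    rw [sum_congr rfl fun k _ => h3 k, sum_comm]
    refine sum_congr rfl fun κ _ => ?_
    by_cases h : Exc κ v
    · simp only [h, and_true, if_true, sum_mul]
      refine sum_congr rfl fun k _ => ?_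
      split_ifs
      · rfl
      · rw [zero_mul]
    · simp [h]
  rw [h2]
  refine sum_le_sum fun κ _ => ?_
  by_cases h : Exc κ v
  · by_cases hm : d.pd.mem d.t κ v
    · rw [if_pos h, if_pos ⟨hm, h⟩]
      exact mul_le_of_le_one_left (d.mb_nonneg _ _) (d.sum_wt_le κ v
        (fun k => (k.1 : ℕ) ≤ v.length ∧ d.In k.1 κ v) fun _ hk => hk)
    · rw [if_pos h, if_neg fun h4 => hm h4.1]
      rw [sum_eq_zero fun k _ => if_neg fun h4 => hm h4.2.2, zero_mul]
  · rw [if_neg h, if_neg fun h4 => h h4.2]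

/-- **energy of the bad classes** -/
lemma bad_le {v : Node} (hv : v.length < n) :
    ∑ k, (if d.Good Exc δ k v then 0 else d.L.sys.α k v * ‖d.L.sys.τ k v‖ ^ 2) ≤
      2 * (∑ κ, d.wB Exc δ κ v * d.mb κ v * ‖d.dM κ v‖ ^ 2) + 8 * d.η ^ 2 * d.er v := by
  have h1 : ∑ κ, d.wB Exc δ κ v * d.mb κ v * ‖d.dM κ v‖ ^ 2 =
      ∑ k : Fin n × I, if ¬ d.Good Exc δ k v then
      ∑ κ, (if d.In k.1 κ v then d.wt κ (anc k.1 v) k.2 * d.mb κ v * ‖d.dM κ v‖ ^ 2 else 0)
        else 0 := by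
    rw [← d.sum_wB_mul v (fun κ => ‖d.dM κ v‖ ^ 2)]
    exact sum_congr rfl fun κ _ => by ring
  rw [h1]
  unfold er
  rw [mul_sum, mul_sum, ← sum_add_distrib]
  refine sum_le_sum fun k _ => ?_
  have hn : ∀ κ, 0 ≤ (if d.In k.1 κ v then d.wt κ (anc k.1 v) k.2 * d.mb κ v *
      (1 / 2 : ℝ) ^ (v.length - k.1) else 0) := by
    intro κ
    split_ifs
    · exact mul_nonneg (mul_nonneg (d.wt0 _ _ _) (d.mb_nonneg _ _)) (by positivity)
    · exact le_rfl
  by_cases h : d.Good Exc δ k v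
  · rw [if_pos h, if_neg (not_not.mpr h), mul_zero, zero_add]
    refine mul_nonneg (by positivity) ?_
    split_ifs
    · exact sum_nonneg fun κ _ => hn κ
    · exact le_rfl
  · have hk := d.le_of_not_good h
    rw [if_neg h, if_pos h, if_pos hk]
    refine (d.ατ_le hv hk).trans ?_
    rw [mul_sum, mul_sum, ← sum_add_distrib]
    refine sum_le_sum fun κ _ => ?_
    split_ifs
    · have hu : 0 ≤ d.wt κ (anc k.1 v) k.2 * d.mb κ v := mul_nonneg (d.wt0 _ _ _) (d.mb_nonneg _ _)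
      have hp : (0 : ℝ) ≤ (1 / 2) ^ (v.length - (k.1 : ℕ)) := by positivity
      have hp1 : (1 / 2 : ℝ) ^ (v.length - (k.1 : ℕ)) ≤ 1 := pow_le_one₀ (by norm_num) (by norm_num)
      have h5 : (‖d.dM κ v‖ + 2 * d.ep k.1 v) ^ 2 ≤
          2 * ‖d.dM κ v‖ ^ 2 + 8 * d.η ^ 2 * (1 / 2) ^ (v.length - (k.1 : ℕ)) := by
        have h6 : d.ep k.1 v ^ 2 ≤ d.η ^ 2 * (1 / 2) ^ (v.length - (k.1 : ℕ)) := by
          unfold ep
          rw [mul_pow]
          refine mul_le_mul_of_nonneg_left ?_ (sq_nonneg _)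
          nlinarith
        nlinarith [sq_nonneg (‖d.dM κ v‖ - 2 * d.ep k.1 v)]
      have h7 := mul_le_mul_of_nonneg_left h5 hu
      linarith
    · simp

lemma norm_M_le {κ : X} {v : Node} (hv : v.length ≤ n) : ‖d.M κ v‖ ≤ 2 := by
  refine le_trans ?_ (d.gb_le_two hv)
  refine norm_Lc_le_of _ _ fun y _ => ?_
  rw [norm_mul, Complex.norm_real, Real.norm_of_nonneg (d.f0 _ y)]
  exact mul_le_of_le_one_right (d.f0 _ y) (d.heX κ y)

/-- **`z` of a good class** -/
lemma good_z {v : Node} (hv : v.length < n)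
    (hE : ∀ κ, d.pd.mem d.t κ v → ¬ Exc κ v → ‖d.M κ v‖ ≤ δ) {k : Fin n × I}
    (h : d.Good Exc δ k v) : ‖d.L.sys.z k v‖ ≤ (3 * δ + 2 * d.η) * d.L.sys.α k v := by
  by_cases hk : (k.1 : ℕ) ≤ v.length
  · have h1 := h hk
    refine (d.z_le hv.le hk).trans ?_
    have h2 : ∑ κ, (if d.In k.1 κ v then
        d.wt κ (anc k.1 v) k.2 * d.mb κ v * (‖d.M κ v‖ + 2 * d.ep k.1 v) else 0) ≤
        (δ + 2 * d.η) * d.L.sys.α k v + 2 * d.Ek Exc k v := by
      rw [d.sys_α hv.le k hk]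
      unfold Ek
      rw [mul_sum, mul_sum, ← sum_add_distrib]
      refine sum_le_sum fun κ _ => ?_
      by_cases hI : d.In k.1 κ v
      · have hu : 0 ≤ d.wt κ (anc k.1 v) k.2 * d.mb κ v :=
          mul_nonneg (d.wt0 _ _ _) (d.mb_nonneg _ _)
        have he := d.ep_le k.1 v
        simp only [hI, if_true, true_and]
        by_cases hX : Exc κ v
        · rw [if_pos hX]
          have h3 := d.norm_M_le (κ := κ) hv.le
          have h4 : 0 ≤ δ * (d.wt κ (anc k.1 v) k.2 * d.mb κ v) ∨ δ < 0 := by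
            rcases le_or_gt 0 δ with h | h
            · exact Or.inl (mul_nonneg h hu)
            · exact Or.inr h
          rcases h4 with h4 | h4
          · nlinarith
          · -- a negative bound is impossible for a good class unless the mass is zero
            have h5 : 0 ≤ d.Ek Exc k v := by
              unfold Ek
              refine sum_nonneg fun κ _ => ?_
              split_ifs
              · exact mul_nonneg (d.wt0 _ _ _) (d.mb_nonneg _ _)
              · exact le_rfl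
            have h6 : 0 ≤ d.L.sys.α k v := Lf_nonneg _ _ fun x _ => d.L.a_nonneg k _ x
            have h7 : d.L.sys.α k v = 0 := by nlinarith
            have h8 : d.wt κ (anc k.1 v) k.2 * d.mb κ v ≤ d.L.sys.α k v := by
              rw [d.sys_α hv.le k hk]
              have := single_le_sum (f := fun κ => if d.In k.1 κ v then
                d.wt κ (anc k.1 v) k.2 * d.mb κ v else 0) (fun κ _ => by
                  show 0 ≤ (if d.In k.1 κ v then d.wt κ (anc k.1 v) k.2 * d.mb κ v else 0)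
                  split_ifs
                  · exact mul_nonneg (d.wt0 _ _ _) (d.mb_nonneg _ _)
                  · exact le_rfl) (mem_univ κ)
              simpa [hI] using this
            have h9 : d.wt κ (anc k.1 v) k.2 * d.mb κ v = 0 := le_antisymm (by linarith) hu
            rw [h9]; simp
        · rw [if_neg hX, mul_zero, add_zero]
          have h3 := hE κ hI.2 hX
          nlinarith
      · simp [hI]
    linarith
  · have h1 : d.L.sys.z k v = 0 := by
      unfold ESys.z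
      refine sum_eq_zero fun q _ => ?_
      have h2 : ‖d.L.sys.A k q v‖ ≤ 0 := by
        rw [← d.α_zero k (not_le.mp hk)]
        exact norm_Lc_le_of _ _ fun x hx => d.L.c_le k q _ x (by omega)
      rw [norm_le_zero_iff.mp h2, zero_mul]
    rw [h1, d.α_zero k (not_le.mp hk)]
    simp

end SD

end Vale.Agent.P091.T.H316
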