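import Vale.Agent.P091.T.H316.SD3

/-!
# P091, heart, row E1-D (helper316): the gain identity and the stage bound
-/

set_option autoImplicit false

open Finset Vale.Agent.P091.H413 Vale.Agent.P091.T.H587 Vale.Agent.P091.T.H233
open scoped Classical

noncomputable section

namespace Vale.Agent.P091.T.H316

namespace SD

variable {X I Q : Type} [Fintype X] [Fintype I] [Fintype Q] {n : ℕ} (d : SD X I Q n)

/-- half difference of the coefficient over the children of `u` -/
def hdA (κ : X) (u : Node) : ℂ :=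
  (Lc (n - (true :: u).length) (d.AX κ) (true :: u)
    - Lc (n - (false :: u).length) (d.AX κ) (false :: u)) / 2

/-- delayed form of the gain of the stage at the child `c` -/
def FCa (c : Bool) (v : Node) : ℂ :=
  ∑ κ, if d.pd.mem d.t κ v ∧ d.pd.mem d.t κ (c :: v) then d.hdA κ (c :: v) * d.dM κ v else 0

def hg (κ : X) (w : Node) (i : I) (q : Q) (u : Node) : ℂ :=
  (Lc (n - (true :: u).length) (d.γ κ w i q) (true :: u)
    - Lc (n - (false :: u).length) (d.γ κ w i q) (false :: u)) / 2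

def hc (κ : X) (w : Node) (i : I) (u : Node) : ℂ :=
  (Lc (n - (true :: u).length) (d.cc κ w i) (true :: u)
    - Lc (n - (false :: u).length) (d.cc κ w i) (false :: u)) / 2

lemma sum_hc {κ : X} {w : Node} (hκ : κ ∈ d.pd.new w d.t) (hw : w.length ≤ n) {u : Node}
    (hu : u.length < n) : ∑ i, d.hc κ w i u = d.hdA κ u / 4 := by
  have h1 : ∀ c : Bool, ∑ i, Lc (n - (c :: u).length) (d.cc κ w i) (c :: u) =
      Lc (n - (c :: u).length) (d.AX κ) (c :: u) / 4 := by
    intro c
    rw [← Lc_sum]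
    have h2 : Lc (n - (c :: u).length) (d.AX κ) (c :: u) / 4 =
        Lc (n - (c :: u).length) (fun x => (1 / 4 : ℂ) * d.AX κ x) (c :: u) := by
      rw [Lc_mul_left]; ring
    rw [h2]
    refine Lc_congr _ _ fun x hx => ?_
    simp only [List.length_cons] at hx
    rw [d.hAX κ w x hκ hw (by omega)]
    ring
  unfold hc hdA
  rw [← sum_div, sum_sub_distrib, h1, h1]
  ring

/-- pairing of the half differences -/
lemma pair_hd {κ : X} {i : I} {v : Node} {ℓ : ℕ} (hℓ : ℓ ≤ v.length)
    (hκ : κ ∈ d.pd.new (anc ℓ v) d.t) (hv : v.length + 1 < n) (c : Bool) (k : Fin n × I)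
    (hk : k.2 = i) :
    ‖∑ q, d.hg κ (anc ℓ v) i q (c :: v) * d.L.sys.dB k q v
      - d.hc κ (anc ℓ v) i (c :: v) * d.dM κ v‖
    ≤ d.ep ℓ v * (d.wt κ (anc ℓ v) i * d.mb κ (c :: v)) * d.gb v := by
  subst hk
  have hP : ∀ c' c'' : Bool,
      ‖∑ q, Lc (n - (c' :: c :: v).length) (d.γ κ (anc ℓ v) k.2 q) (c' :: c :: v) *
          Lc (n - (c'' :: v).length) (fun y => (d.f v.length y : ℂ) * (d.P y q : ℂ) *
            d.eI k.2 y) (c'' :: v)
        - Lc (n - (c' :: c :: v).length) (d.cc κ (anc ℓ v) k.2) (c' :: c :: v) *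
          d.Mc κ c'' v‖
      ≤ d.ep ℓ v * (d.wt κ (anc ℓ v) k.2 * d.mb κ (c' :: c :: v)) * d.Gc c'' v := by
    intro c' c''
    exact d.pairing (i := k.2) hℓ hκ (v1 := c' :: c :: v) (v2 := c'' :: v) [c', c] [c''] rfl rfl
      (by simp only [List.length_cons]; omega) (by simp only [List.length_cons]; omega)
      (d.f v.length) (d.f0 v.length)
  have e1 : ∑ q, d.hg κ (anc ℓ v) k.2 q (c :: v) * d.L.sys.dB k q v =
      ((∑ q, Lc (n - (true :: c :: v).length) (d.γ κ (anc ℓ v) k.2 q) (true :: c :: v) *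
          Lc (n - (true :: v).length) (fun y => (d.f v.length y : ℂ) * (d.P y q : ℂ) *
            d.eI k.2 y) (true :: v))
      - (∑ q, Lc (n - (true :: c :: v).length) (d.γ κ (anc ℓ v) k.2 q) (true :: c :: v) *
          Lc (n - (false :: v).length) (fun y => (d.f v.length y : ℂ) * (d.P y q : ℂ) *
            d.eI k.2 y) (false :: v))
      - (∑ q, Lc (n - (false :: c :: v).length) (d.γ κ (anc ℓ v) k.2 q) (false :: c :: v) *
          Lc (n - (true :: v).length) (fun y => (d.f v.length y : ℂ) * (d.P y q : ℂ) *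
            d.eI k.2 y) (true :: v))
      + (∑ q, Lc (n - (false :: c :: v).length) (d.γ κ (anc ℓ v) k.2 q) (false :: c :: v) *
          Lc (n - (false :: v).length) (fun y => (d.f v.length y : ℂ) * (d.P y q : ℂ) *
            d.eI k.2 y) (false :: v))) / 4 := by
    rw [← sum_sub_distrib, ← sum_sub_distrib, ← sum_add_distrib, sum_div]
    refine sum_congr rfl fun q _ => ?_
    unfold ESys.dB hg
    rw [sys_B', sys_B']
    ring
  have h1 := hP true true
  have h2 := hP true false
  have h3 := hP false true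
  have h4 := hP false false
  rw [e1]
  set p1 := ∑ q, Lc (n - (true :: c :: v).length) (d.γ κ (anc ℓ v) k.2 q) (true :: c :: v) *
          Lc (n - (true :: v).length) (fun y => (d.f v.length y : ℂ) * (d.P y q : ℂ) *
            d.eI k.2 y) (true :: v) with hp1
  set p2 := ∑ q, Lc (n - (true :: c :: v).length) (d.γ κ (anc ℓ v) k.2 q) (true :: c :: v) *
          Lc (n - (false :: v).length) (fun y => (d.f v.length y : ℂ) * (d.P y q : ℂ) *
            d.eI k.2 y) (false :: v) with hp2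
  set p3 := ∑ q, Lc (n - (false :: c :: v).length) (d.γ κ (anc ℓ v) k.2 q) (false :: c :: v) *
          Lc (n - (true :: v).length) (fun y => (d.f v.length y : ℂ) * (d.P y q : ℂ) *
            d.eI k.2 y) (true :: v) with hp3
  set p4 := ∑ q, Lc (n - (false :: c :: v).length) (d.γ κ (anc ℓ v) k.2 q) (false :: c :: v) *
          Lc (n - (false :: v).length) (fun y => (d.f v.length y : ℂ) * (d.P y q : ℂ) *
            d.eI k.2 y) (false :: v) with hp4
  set c1 := Lc (n - (true :: c :: v).length) (d.cc κ (anc ℓ v) k.2) (true :: c :: v) with hc1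
  set c2 := Lc (n - (false :: c :: v).length) (d.cc κ (anc ℓ v) k.2) (false :: c :: v) with hc2
  have e2 : (p1 - p2 - p3 + p4) / 4 - d.hc κ (anc ℓ v) k.2 (c :: v) * d.dM κ v =
      ((p1 - c1 * d.Mc κ true v) - (p2 - c1 * d.Mc κ false v) - (p3 - c2 * d.Mc κ true v)
        + (p4 - c2 * d.Mc κ false v)) / 4 := by
    unfold hc dM
    rw [← hc1, ← hc2]
    ring
  rw [e2, norm_div, Complex.norm_ofNat]
  have h5 := norm_add_le ((p1 - c1 * d.Mc κ true v) - (p2 - c1 * d.Mc κ false v)
    - (p3 - c2 * d.Mc κ true v)) (p4 - c2 * d.Mc κ false v)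
  have h6 := norm_sub_le ((p1 - c1 * d.Mc κ true v) - (p2 - c1 * d.Mc κ false v))
    (p3 - c2 * d.Mc κ true v)
  have h7 := norm_sub_le (p1 - c1 * d.Mc κ true v) (p2 - c1 * d.Mc κ false v)
  have e3 : d.ep ℓ v * (d.wt κ (anc ℓ v) k.2 * d.mb κ (c :: v)) * d.gb v =
      (d.ep ℓ v * (d.wt κ (anc ℓ v) k.2 * d.mb κ (true :: c :: v)) * d.Gc true v
      + d.ep ℓ v * (d.wt κ (anc ℓ v) k.2 * d.mb κ (true :: c :: v)) * d.Gc false v
      + d.ep ℓ v * (d.wt κ (anc ℓ v) k.2 * d.mb κ (false :: c :: v)) * d.Gc true v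
      + d.ep ℓ v * (d.wt κ (anc ℓ v) k.2 * d.mb κ (false :: c :: v)) * d.Gc false v) / 4 := by
    rw [d.gb_mart (v := v) (by omega),
      d.mb_mart κ (v := c :: v) (by simp only [List.length_cons]; omega)]
    ring
  rw [e3, div_le_div_iff_of_pos_right (by norm_num : (0:ℝ) < 4)]
  linarith

/-- the x-difference at the child -/
lemma sys_dA {v : Node} (hv : v.length + 1 < n) (c : Bool) (k : Fin n × I)
    (hk : (k.1 : ℕ) ≤ v.length) (q : Q) :
    d.L.sys.dA k q (c :: v) =
      ∑ κ, if d.In k.1 κ (c :: v) then d.hg κ (anc k.1 v) k.2 q (c :: v) else 0 := by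
  have h1 := d.sys_A' (v := c :: v) (by simp only [List.length_cons]; omega) true k
    (by simp only [List.length_cons]; omega) q
  have h2 := d.sys_A' (v := c :: v) (by simp only [List.length_cons]; omega) false k
    (by simp only [List.length_cons]; omega) q
  unfold ESys.dA
  rw [h1, h2, ← sum_sub_distrib, sum_div]
  refine sum_congr rfl fun κ _ => ?_
  rw [anc_cons c hk]
  split_ifs
  · rfl
  · simp

/-- sum over the levels of activation -/
lemma sum_level {v : Node} (hv : v.length < n) (c : Bool) (κ : X) (Z : ℂ) :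
    ∑ ℓ : Fin n, (if (ℓ : ℕ) ≤ v.length ∧ d.In ℓ κ (c :: v) then Z else 0) =
      if d.pd.mem d.t κ v ∧ d.pd.mem d.t κ (c :: v) then Z else 0 := by
  by_cases h : d.pd.mem d.t κ v ∧ d.pd.mem d.t κ (c :: v)
  · rw [if_pos h]
    obtain ⟨ℓ, hℓ, hn⟩ := d.pd.exists_new h.1
    have hIn : d.In ℓ κ (c :: v) := ⟨by rw [anc_cons c hℓ]; exact hn, h.2⟩
    rw [sum_eq_single (⟨ℓ, by omega⟩ : Fin n)]
    · rw [if_pos ⟨hℓ, hIn⟩]
    · intro ℓ' _ hne
      rw [if_neg]
      rintro ⟨h1, h2⟩
      refine hne (Fin.ext ?_)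
      exact d.In_unique (v := c :: v) (by simp only [List.length_cons]; omega)
        (by simp only [List.length_cons]; omega) h2 hIn
    · intro h1; exact absurd (mem_univ _) h1
  · rw [if_neg h]
    refine sum_eq_zero fun ℓ _ => if_neg ?_
    rintro ⟨h1, h2, h3⟩
    rw [anc_cons c h1] at h2
    exact h ⟨d.pd.mem_of_cons c h3 (d.pd.act_anc h1 d.t (d.pd.new_sub_act _ _ h2)), h3⟩

lemma gain_id {v : Node} (hv : v.length + 1 < n) (c : Bool) :
    ‖d.FCa c v - 4 * ∑ k, (if d.L.sys.α' k (c :: v) = 0 then 0 else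
      ∑ q, d.L.sys.dA k q (c :: v) * d.L.sys.dB k q v)‖ ≤ 16 * d.η * d.er (c :: v) := by
  have hv' : v.length < n := by omega
  -- the sum of the system
  have h1 : ∀ k : Fin n × I, (if d.L.sys.α' k (c :: v) = 0 then 0 else
      ∑ q, d.L.sys.dA k q (c :: v) * d.L.sys.dB k q v) =
      if (k.1 : ℕ) ≤ v.length then ∑ κ, (if d.In k.1 κ (c :: v) then
        ∑ q, d.hg κ (anc k.1 v) k.2 q (c :: v) * d.L.sys.dB k q v else 0) else 0 := by
    intro k
    by_cases hk : (k.1 : ℕ) ≤ v.length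
    · have h2 : ∑ q, d.L.sys.dA k q (c :: v) * d.L.sys.dB k q v =
          ∑ κ, (if d.In k.1 κ (c :: v) then
            ∑ q, d.hg κ (anc k.1 v) k.2 q (c :: v) * d.L.sys.dB k q v else 0) := by
        simp only [d.sys_dA hv c k hk, sum_mul]
        rw [sum_comm]
        refine sum_congr rfl fun κ _ => ?_
        split_ifs
        · rfl
        · simp
      rw [if_pos hk, ← h2]
      by_cases h0 : d.L.sys.α' k (c :: v) = 0
      · rw [if_pos h0]
        refine (sum_eq_zero fun q _ => ?_).symm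
        have h3 : d.L.sys.α k (c :: v) ≤ d.L.sys.α' k (c :: v) := by
          show Lf (n - (c :: v).length) (d.L.a k (c :: v).length) (c :: v) ≤
            Lf (n - (c :: v).length) (d.L.a k ((c :: v).length - 1)) (c :: v)
          refine Lf_mono _ _ fun x hx => ?_
          exact d.L.a_anti k v.length x (by simp only [List.length_cons] at hx; omega) hk
        have h4 : ‖d.L.sys.dA k q (c :: v)‖ ≤ d.L.sys.α k (c :: v) := by
          have h5 : ∀ c' : Bool, ‖d.L.sys.A' k q (c' :: c :: v)‖ ≤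
              d.L.sys.α' k (c' :: c :: v) := fun c' =>
            norm_Lc_le_of _ _ fun x hx => d.L.c_le k q _ x (by
              simp only [List.length_cons] at hx; omega)
          have h6 : d.L.sys.α k (c :: v) = (d.L.sys.α' k (true :: c :: v) +
              d.L.sys.α' k (false :: c :: v)) / 2 := LeafData.Lf_step (d.L.a k) (c :: v)
            (by simp only [List.length_cons]; omega)
          rw [h6]
          unfold ESys.dA
          rw [norm_div, Complex.norm_ofNat]
          have h7 := norm_sub_le (d.L.sys.A' k q (true :: c :: v))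
            (d.L.sys.A' k q (false :: c :: v))
          have h8 := h5 true
          have h9 := h5 false
          gcongr
          linarith
        rw [h0] at h3
        have h5 : d.L.sys.dA k q (c :: v) = 0 := norm_le_zero_iff.mp (h4.trans h3)
        rw [h5, zero_mul]
      · rw [if_neg h0]
    · rw [if_neg hk, if_pos]
      show Lf (n - (c :: v).length) (d.L.a k ((c :: v).length - 1)) (c :: v) = 0
      refine le_antisymm (Lf_le_of _ _ fun x _ => (d.L.a_act k _ x ?_).le) ?_
      · have : v.length < d.L.act k := not_le.mp hk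
        simpa using this
      · exact Lf_nonneg _ _ fun x _ => d.L.a_nonneg k _ x
  rw [sum_congr rfl fun k _ => h1 k]
  -- the main term
  have h2 : d.FCa c v = 4 * ∑ k : Fin n × I, (if (k.1 : ℕ) ≤ v.length then
      ∑ κ, (if d.In k.1 κ (c :: v) then
        d.hc κ (anc k.1 v) k.2 (c :: v) * d.dM κ v else 0) else 0) := by
    rw [Fintype.sum_prod_type]
    have h3 : ∀ ℓ : Fin n, ∑ i : I, (if (ℓ : ℕ) ≤ v.length then
        ∑ κ, (if d.In ℓ κ (c :: v) then d.hc κ (anc ℓ v) i (c :: v) * d.dM κ v else 0) else 0) =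
        ∑ κ, (if (ℓ : ℕ) ≤ v.length ∧ d.In ℓ κ (c :: v) then
          d.hdA κ (c :: v) / 4 * d.dM κ v else 0) := by
      intro ℓ
      by_cases hℓ : (ℓ : ℕ) ≤ v.length
      · simp only [hℓ, true_and, if_true]
        rw [sum_comm]
        refine sum_congr rfl fun κ _ => ?_
        by_cases hI : d.In ℓ κ (c :: v)
        · simp only [if_pos hI]
          rw [← sum_mul, d.sum_hc (w := anc ℓ v) (by
            have := hI.1
            rwa [anc_cons c hℓ] at this) (by rw [length_anc hℓ]; omega)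
            (by simp only [List.length_cons]; omega)]
        · simp [hI]
      · simp [hℓ]
    rw [sum_congr rfl fun ℓ _ => h3 ℓ, sum_comm, mul_sum]
    unfold FCa
    refine sum_congr rfl fun κ _ => ?_
    rw [d.sum_level hv' c κ]
    split_ifs
    · ring
    · ring
  rw [h2, ← mul_sub, ← sum_sub_distrib, norm_mul, Complex.norm_ofNat]
  have h3 : ‖∑ k : Fin n × I, ((if (k.1 : ℕ) ≤ v.length then ∑ κ, (if d.In k.1 κ (c :: v) then
        d.hc κ (anc k.1 v) k.2 (c :: v) * d.dM κ v else 0) else 0) -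
      (if (k.1 : ℕ) ≤ v.length then ∑ κ, (if d.In k.1 κ (c :: v) then
        ∑ q, d.hg κ (anc k.1 v) k.2 q (c :: v) * d.L.sys.dB k q v else 0) else 0))‖ ≤
      4 * d.η * d.er (c :: v) := by
    unfold er
    rw [mul_sum]
    refine norm_sum_le_of_le _ fun k _ => ?_
    by_cases hk : (k.1 : ℕ) ≤ v.length
    · rw [if_pos hk, if_pos hk, if_pos (by simp only [List.length_cons]; omega),
        ← sum_sub_distrib, mul_sum]
      refine norm_sum_le_of_le _ fun κ _ => ?_
      by_cases hI : d.In k.1 κ (c :: v)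
      · simp only [if_pos hI]
        have hn : κ ∈ d.pd.new (anc k.1 v) d.t := by
          have := hI.1
          rwa [anc_cons c hk] at this
        have h4 := d.pair_hd (i := k.2) hk hn hv c k rfl
        rw [norm_sub_rev] at h4
        refine h4.trans ?_
        rw [anc_cons c hk]
        have hu : 0 ≤ d.wt κ (anc k.1 v) k.2 * d.mb κ (c :: v) :=
          mul_nonneg (d.wt0 _ _ _) (d.mb_nonneg _ _)
        have h5 := d.gb_le_two hv'.le
        have h6 : (1 / 2 : ℝ) ^ (v.length - (k.1 : ℕ)) =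
            2 * (1 / 2) ^ ((c :: v).length - (k.1 : ℕ)) := by
          have : (c :: v).length - (k.1 : ℕ) = (v.length - (k.1 : ℕ)) + 1 := by
            simp only [List.length_cons]; omega
          rw [this, pow_succ]; ring
        have h7 : d.ep k.1 v * (d.wt κ (anc k.1 v) k.2 * d.mb κ (c :: v)) * d.gb v ≤
            d.ep k.1 v * (d.wt κ (anc k.1 v) k.2 * d.mb κ (c :: v)) * 2 :=
          mul_le_mul_of_nonneg_left h5 (mul_nonneg (d.ep_nonneg _ _) hu)
        refine h7.trans (le_of_eq ?_)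
        unfold ep
        rw [h6]
        ring
      · simp [hI]
    · rw [if_neg hk, if_neg hk, sub_zero, norm_zero]
      refine mul_nonneg (mul_nonneg (by norm_num) d.η0) ?_
      split_ifs
      · refine sum_nonneg fun κ _ => ?_
        split_ifs
        · exact mul_nonneg (mul_nonneg (d.wt0 _ _ _) (d.mb_nonneg _ _)) (by positivity)
        · exact le_rfl
      · exact le_rfl
  linarith

/-- **the stage bound, departure form** -/
theorem stage : ∃ C : ℝ, 0 < C ∧ ∀ (X I Q : Type) [Fintype X] [Fintype I] [Fintype Q] (n : ℕ)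
    (d : SD X I Q n) (Exc : X → Node → Prop) (δ h I0 N ξ : ℝ),
    0 < δ → 0 ≤ h → 0 ≤ I0 → 0 ≤ N →
    (∀ κ v, v.length < n → d.pd.mem d.t κ v → ¬ Exc κ v → ‖d.M κ v‖ ≤ δ) →
    (∀ v : Node, v.length < n → ∑ κ, (if d.pd.mem d.t κ v ∧ Exc κ v then d.mb κ v else 0) ≤ ξ) →
    S n (fun v => ∑ k, d.L.sys.dα k v ^ 2 / d.L.sys.α k v) [] ≤ 2 * h →
    S n (fun v => ∑ q, d.L.sys.dG q v ^ 2 / d.L.sys.G q v) [] ≤ I0 →
    (∀ w : X → Node → ℝ, (∀ κ v, 0 ≤ w κ v) → (∀ κ v, w κ v ≤ 1) →
      (∀ κ v, w κ v ≠ 0 → d.pd.mem d.t κ v) →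
      (∀ v : Node, v.length < n → ∑ κ, w κ v * d.mb κ v ≤ ξ / δ) →
      S n (fun v => ∑ κ, w κ v * d.mb κ v * ‖d.dM κ v‖ ^ 2) [] ≤ N) →
    ∀ c : Bool, S (n - 1) (fun v => ‖d.FCa c v‖) [] ≤
      C * ((3 * δ + 2 * d.η) * h + √((1 + 1 + h + I0) * (1 + 1 + I0 + √(I0 * h)))
        + √h * √(1 + 1 + √(h * (2 * N + 16 * d.η ^ 2))
          + √((1 + 1 + h + I0) * (1 + 1 + I0 + √(I0 * h)))
            + (1 + 1 + I0 + √(I0 * h))) + I0 + 1 + 1) + 64 * d.η := by
  obtain ⟨C, hC, hmain⟩ := lemmaE_dep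
  refine ⟨4 * C, by positivity, ?_⟩
  intro X I Q _ _ _ n d Exc δ h I0 N ξ hδ hh hI hN hE hx h1 h2 hw c
  have hok : d.L.sys.Ok n := by
    refine d.L.ok fun v hv => ?_
    refine le_trans (Lf_mono _ _ fun y _ => ?_) (d.fle v hv)
    show ∑ q, d.f (v.length - 1) y * d.P y q ≤ d.f (v.length - 1) y
    rw [← mul_sum, d.Psum, mul_one]
  have h3 : S n (fun v => ∑ k, max (d.L.sys.α' k v - d.L.sys.α k v) 0) [] ≤ 1 :=
    d.xw.removed _ _ _ _ _ _ _
  have hbad : S n (fun v => ∑ k, if d.Good Exc δ k v then 0 else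
      d.L.sys.α k v * ‖d.L.sys.τ k v‖ ^ 2) [] ≤ 2 * N + 16 * d.η ^ 2 := by
    have h4 := hw (d.wB Exc δ) (d.wB_nonneg) (d.wB_le_one) (fun κ v => d.mem_of_wB)
      (fun v hv => (d.wB_mass hδ hv.le).trans (div_le_div_of_nonneg_right (hx v hv) hδ.le))
    refine (S_mono n [] (fun v hv => d.bad_le (by simpa using hv))).trans ?_
    rw [S_add, S_smul, S_smul]
    have h5 := d.S_er
    have h6 : 8 * d.η ^ 2 * S n d.er [] ≤ 8 * d.η ^ 2 * 2 :=
      mul_le_mul_of_nonneg_left h5 (by positivity)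
    linarith
  have hg := hmain (Fin n × I) Q d.L.sys n (d.Good Exc δ) h I0 1 (3 * δ + 2 * d.η)
    (2 * N + 16 * d.η ^ 2) hok hh hI zero_le_one
    (by have := d.η0; linarith) (by positivity) h1 h2 h3
    (fun k v hv hgood => d.good_z hv (fun κ hm hX => hE κ v hv hm hX) hgood) hbad c
  rcases Nat.eq_zero_or_pos n with h0 | h0
  · subst h0
    have e0 : S (0 - 1) (fun v => ‖d.FCa c v‖) [] = 0 := rfl
    rw [e0]
    have hη := d.η0
    have : 0 ≤ S (0 - 1) (d.L.sys.gain1 c) [] := le_refl _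
    have h9 := this.trans hg
    nlinarith
  have h4 : S (n - 1) (fun v => ‖d.FCa c v‖) [] ≤
      S (n - 1) (fun v => 4 * d.L.sys.gain1 c v + 16 * d.η * d.er (c :: v)) [] := by
    refine S_mono (n - 1) [] fun v hv => ?_
    have hv' : v.length + 1 < n := by simp only [List.length_nil, add_zero] at hv; omega
    have h5 := d.gain_id hv' c
    have h6 := norm_sub_norm_le (d.FCa c v) (4 * ∑ k, (if d.L.sys.α' k (c :: v) = 0 then 0 else
      ∑ q, d.L.sys.dA k q (c :: v) * d.L.sys.dB k q v))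
    have h7 : ‖4 * ∑ k, (if d.L.sys.α' k (c :: v) = 0 then 0 else
      ∑ q, d.L.sys.dA k q (c :: v) * d.L.sys.dB k q v)‖ = 4 * d.L.sys.gain1 c v := by
      rw [norm_mul, Complex.norm_ofNat]; rfl
    rw [h7] at h6
    linarith
  have h5 : S (n - 1) (fun v => d.er (c :: v)) [] ≤ 4 := by
    have h6 := S_child_le (n - 1) (F := d.er) [] (fun w _ => d.er_nonneg w) c
    rw [Nat.sub_add_cancel h0] at h6
    have := d.S_er
    linarith
  rw [S_add, S_smul, S_smul] at h4
  have h6 : 16 * d.η * S (n - 1) (fun v => d.er (c :: v)) [] ≤ 16 * d.η * 4 :=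
    mul_le_mul_of_nonneg_left h5 (mul_nonneg (by norm_num) d.η0)
  linarith

end SD

end Vale.Agent.P091.T.H316
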